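import Mathlib

/-!
Scalar recursions of STEP Z and STEP T (harmonic decay of the contraction constants).
Pure real analysis.
-/

namespace Vale.Agent.P162

open Filter Topology

lemma exists_log_sq_small (η : ℝ) (hη : 0 < η) :
    ∃ X : ℝ, 3 ≤ X ∧ ∀ x : ℝ, X ≤ x → Real.log x ^ 2 ≤ η * x := by
  have h := Real.tendsto_pow_log_div_mul_add_atTop 1 0 2 one_ne_zero
  have h2 : ∀ᶠ x : ℝ in atTop, Real.log x ^ 2 / (1 * x + 0) < η :=
    h.eventually (gt_mem_nhds hη)
  obtain ⟨X, hX⟩ := Filter.eventually_atTop.mp h2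
  refine ⟨max X 3, le_max_right _ _, fun x hx => ?_⟩
  have hx1 : X ≤ x := le_trans (le_max_left _ _) hx
  have hx3 : (3:ℝ) ≤ x := le_trans (le_max_right _ _) hx
  have h3 := hX x hx1
  have hxpos : 0 < x := by linarith
  rw [one_mul, add_zero, div_lt_iff₀ hxpos] at h3
  exact h3.le

lemma one_le_log_of_three_le (x : ℝ) (hx : 3 ≤ x) : 1 ≤ Real.log x := by
  have h1 : Real.exp 1 ≤ x := by
    have := Real.exp_one_lt_d9
    linarith
  calc (1:ℝ) = Real.log (Real.exp 1) := (Real.log_exp 1).symm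
    _ ≤ Real.log x := Real.log_le_log (Real.exp_pos 1) h1

lemma log_window (r : ℝ) (hr0 : 0 < r) (M n : ℕ) (hM : 1 ≤ M) (h : r * M ≤ n) :
    Real.log M - Real.log (1 / r) ≤ Real.log n := by
  have hMpos : (0:ℝ) < M := by exact_mod_cast hM
  have h1 : Real.log (r * M) ≤ Real.log n := Real.log_le_log (mul_pos hr0 hMpos) h
  rw [Real.log_mul hr0.ne' hMpos.ne'] at h1
  rw [one_div, Real.log_inv]
  linarith

lemma aux_br (A L e y x l : ℝ) (hA : 0 < A) (hL : 0 < L) (he1 : e ≤ 1)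
    (hy : 0 < y) (hx : 0 < x) (hl1 : 1 ≤ l) (hxl : x ≤ l) (hyl : y ≤ l) :
    2 * A * y + A * L + (1 + e) * (y * x) ≤ (2 * A + A * L + 2) * l ^ 2 := by
  have hll : l ≤ l ^ 2 := by nlinarith
  have h1l : 1 ≤ l ^ 2 := le_trans hl1 hll
  have h1 : 2 * A * y ≤ 2 * A * l ^ 2 :=
    mul_le_mul_of_nonneg_left (le_trans hyl hll) (by positivity)
  have h2 : A * L * 1 ≤ A * L * l ^ 2 :=
    mul_le_mul_of_nonneg_left h1l (by positivity)
  have h3 : y * x ≤ l ^ 2 := by
    rw [sq]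
    exact mul_le_mul hyl hxl hx.le (by linarith)
  have h30 : 0 ≤ y * x := by positivity
  have h4 : (1 + e) * (y * x) ≤ 2 * l ^ 2 := by
    calc (1 + e) * (y * x) ≤ 2 * (y * x) := mul_le_mul_of_nonneg_right (by linarith) h30
      _ ≤ 2 * l ^ 2 := by linarith
  linarith

lemma aux_key (A L e y x g : ℝ) (hy : 0 < y) (hgy : g * y = A) (hxy : y = x - L)
    (hsmall : e * (2 * A * y + A * L + (1 + e) * (y * x)) ≤ A * (A - L)) :
    (1 + e) * (g + e) * x ≤ A * (1 - e + g) := by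
  have hx : x = y + L := by rw [hxy]; ring
  have h1 : ((1 + e) * (g + e) * x) * y ≤ (A * (1 - e + g)) * y := by
    have e1 : ((1 + e) * (g + e) * x) * y = (1 + e) * (g * y + e * y) * x := by ring
    have e2 : (A * (1 - e + g)) * y = A * (y - e * y + g * y) := by ring
    rw [e1, e2, hgy]
    rw [hx] at hsmall ⊢
    linarith
  exact le_of_mul_le_mul_right h1 hy

theorem zeta_bound (r K A : ℝ) (M1 : ℕ) (hr0 : 0 < r) (hr1 : r ≤ 1 / 2) (hK : 0 ≤ K)
    (z : ℕ → ℝ) (hz0 : ∀ M, 0 ≤ z M) (hz1 : ∀ M, z M ≤ 1)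
    (hZ : ∀ M : ℕ, M1 ≤ M → ∀ g : ℝ, 0 ≤ g →
      (∀ n : ℕ, r * M ≤ n → (n : ℝ) ≤ (1 - r) * M → z n ≤ g) →
      z M * (1 - K / M + g) ≤ (1 + K / M) * (g + K / M))
    (hA : Real.log (1 / r) < A) :
    ∃ B : ℝ, 0 ≤ B ∧ ∀ M : ℕ, 1 ≤ M → z M * (Real.log M - B) ≤ A := by
  obtain ⟨L, hL⟩ : ∃ L, L = Real.log (1 / r) := ⟨_, rfl⟩
  rw [← hL] at hA
  have hLpos : 0 < L := by
    rw [hL]
    apply Real.log_pos
    rw [lt_div_iff₀ hr0]
    linarith
  have hApos : 0 < A := lt_trans hLpos hA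
  obtain ⟨c2, hc2⟩ : ∃ c2, c2 = 2 * A + A * L + 2 := ⟨_, rfl⟩
  have hc2pos : 0 < c2 := by rw [hc2]; positivity
  have hden : 0 < K * c2 + 1 := by positivity
  obtain ⟨η, hη⟩ : ∃ η, η = A * (A - L) / (K * c2 + 1) := ⟨_, rfl⟩
  have hηpos : 0 < η := by
    rw [hη]
    exact div_pos (mul_pos hApos (sub_pos.mpr hA)) hden
  have hηeq : η * (K * c2 + 1) = A * (A - L) := by
    rw [hη]; field_simp
  obtain ⟨X, hX3, hX⟩ := exists_log_sq_small η hηpos
  obtain ⟨T, hT⟩ : ∃ T, T = max (max X (M1 : ℝ)) K := ⟨_, rfl⟩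
  have hTX : X ≤ T := by rw [hT]; exact le_trans (le_max_left _ _) (le_max_left _ _)
  have hTM1 : (M1 : ℝ) ≤ T := by rw [hT]; exact le_trans (le_max_right _ _) (le_max_left _ _)
  have hTK : K ≤ T := by rw [hT]; exact le_max_right _ _
  have hT3 : 3 ≤ T := le_trans hX3 hTX
  have hTpos : 0 < T := by linarith
  obtain ⟨B, hB⟩ : ∃ B, B = Real.log T := ⟨_, rfl⟩
  have hB0 : 0 ≤ B := by rw [hB]; exact Real.log_nonneg (by linarith)
  refine ⟨B, hB0, ?_⟩
  intro M
  induction M using Nat.strong_induction_on with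
  | _ M ih =>
    intro hM
    have hMpos : (0:ℝ) < M := by exact_mod_cast hM
    obtain ⟨x, hx⟩ : ∃ x, x = Real.log M - B := ⟨_, rfl⟩
    rw [← hx]
    by_cases hxA : x ≤ A
    · by_cases hx0 : x ≤ 0
      · nlinarith [hz0 M]
      · nlinarith [hz0 M, hz1 M]
    · have hxA' : A < x := not_le.mp hxA
      have hlog : Real.log T < Real.log M := by rw [← hB]; linarith
      have hTM : T < M := (Real.log_lt_log_iff hTpos hMpos).mp hlog
      have hM1 : M1 ≤ M := by
        have : (M1 : ℝ) ≤ M := by linarith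
        exact_mod_cast this
      obtain ⟨e, he⟩ : ∃ e, e = K / M := ⟨_, rfl⟩
      have heM : e * M = K := by rw [he]; field_simp
      have he0 : 0 ≤ e := by rw [he]; positivity
      have he1 : e ≤ 1 := by
        rw [he, div_le_one hMpos]; linarith
      obtain ⟨y, hy⟩ : ∃ y, y = x - L := ⟨_, rfl⟩
      have hypos : 0 < y := by rw [hy]; linarith
      obtain ⟨g, hg⟩ : ∃ g, g = A / y := ⟨_, rfl⟩
      have hgpos : 0 < g := by rw [hg]; positivity
      have hgy : g * y = A := by rw [hg]; field_simp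
      have hwin : ∀ n : ℕ, r * M ≤ n → (n : ℝ) ≤ (1 - r) * M → z n ≤ g := by
        intro n hn1 hn2
        have hnpos : (0:ℝ) < n := lt_of_lt_of_le (mul_pos hr0 hMpos) hn1
        have hn1' : 1 ≤ n := by
          have : 0 < n := by exact_mod_cast hnpos
          omega
        have hnM : n < M := by
          have : (n:ℝ) < M := by nlinarith
          exact_mod_cast this
        have h1 := ih n hnM hn1'
        have h2 := log_window r hr0 M n hM hn1
        rw [← hL] at h2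
        have h3 : y ≤ Real.log n - B := by rw [hy, hx]; linarith
        rw [hg, le_div_iff₀ hypos]
        calc z n * y ≤ z n * (Real.log n - B) := mul_le_mul_of_nonneg_left h3 (hz0 n)
          _ ≤ A := h1
      have H := hZ M hM1 g hgpos.le hwin
      rw [← he] at H
      have hpos : 0 < 1 - e + g := by linarith
      -- the key scalar inequality
      obtain ⟨l, hl⟩ : ∃ l, l = Real.log M := ⟨_, rfl⟩
      have hl1 : 1 ≤ l := by
        rw [hl]; exact one_le_log_of_three_le _ (by linarith)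
      have hxl : x ≤ l := by rw [hx, hl]; linarith
      have hyl : y ≤ l := by rw [hy]; linarith
      have hl2 : l ^ 2 ≤ η * M := by
        rw [hl]; exact hX _ (by linarith)
      have hxpos : 0 < x := by linarith
      have hbr : 2 * A * y + A * L + (1 + e) * (y * x) ≤ c2 * l ^ 2 := by
        rw [hc2]
        exact aux_br A L e y x l hApos hLpos he1 hypos hxpos hl1 hxl hyl
      have hsmall : e * (2 * A * y + A * L + (1 + e) * (y * x)) ≤ A * (A - L) := by
        calc e * (2 * A * y + A * L + (1 + e) * (y * x)) ≤ e * (c2 * l ^ 2) :=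
              mul_le_mul_of_nonneg_left hbr he0
          _ ≤ e * (c2 * (η * M)) := by
              apply mul_le_mul_of_nonneg_left _ he0
              exact mul_le_mul_of_nonneg_left hl2 hc2pos.le
          _ = η * (K * c2) := by rw [← heM]; ring
          _ ≤ A * (A - L) := by
              rw [← hηeq]
              have : η * (K * c2 + 1) = η * (K * c2) + η := by ring
              linarith
      have hkey : (1 + e) * (g + e) * x ≤ A * (1 - e + g) :=
        aux_key A L e y x g hypos hgy hy hsmall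
      have h5 : (z M * x) * (1 - e + g) ≤ A * (1 - e + g) := by
        calc (z M * x) * (1 - e + g) = (z M * (1 - e + g)) * x := by ring
          _ ≤ ((1 + e) * (g + e)) * x := mul_le_mul_of_nonneg_right H hxpos.le
          _ ≤ A * (1 - e + g) := hkey
      exact le_of_mul_le_mul_right h5 hpos

lemma aux_T (A A' L kap e x Dl : ℝ) (hL : 0 < L) (hLA : L < A') (hkA0 : 0 ≤ kap * A)
    (hkA : kap * A < A') (hx : 2 * A' < x) (hDl0 : 0 ≤ Dl)
    (hDl : 2 * A' * L ≤ Dl * (A' - L)) (hsm : e * (x + Dl) ≤ A' - kap * A) :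
    kap * A * x * (x - L) + A' * x * (x + Dl) + e * x * ((x + Dl) * (x - L))
      ≤ 2 * A' * ((x + Dl) * (x - L)) := by
  have hA' : 0 < A' := lt_trans hL hLA
  have hxpos : 0 < x := by linarith
  have hxL : 0 < x - L := by linarith
  -- A' (x - 2L) ≥ x (A' - L)
  have h1 : x * (A' - L) ≤ A' * (x - 2 * L) := by nlinarith
  have h2 : Dl * (x * (A' - L)) ≤ Dl * (A' * (x - 2 * L)) :=
    mul_le_mul_of_nonneg_left h1 hDl0
  have h3 : 2 * A' * L * x ≤ Dl * (A' - L) * x :=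
    mul_le_mul_of_nonneg_right hDl hxpos.le
  have h4 : e * (x + Dl) * (x * (x - L)) ≤ (A' - kap * A) * (x * (x - L)) :=
    mul_le_mul_of_nonneg_right hsm (by positivity)
  have h5 : (A' - kap * A) * (x * (x - L)) ≤ (A' - kap * A) * (x * x) := by
    apply mul_le_mul_of_nonneg_left _ (by linarith)
    apply mul_le_mul_of_nonneg_left _ hxpos.le
    linarith
  have h6 : 0 ≤ kap * A * L * x := by positivity
  nlinarith

theorem s_bound (r K A B kap A' : ℝ) (M1 : ℕ) (hr0 : 0 < r) (hr1 : r ≤ 1 / 2) (hK : 0 ≤ K)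
    (hkap : 0 ≤ kap) (hA0 : 0 ≤ A) (hB0 : 0 ≤ B)
    (z s : ℕ → ℝ) (hs0 : ∀ M, 0 ≤ s M) (hs1 : ∀ M, s M ≤ 1 / 2)
    (hz : ∀ M : ℕ, 1 ≤ M → z M * (Real.log M - B) ≤ A)
    (hT : ∀ M : ℕ, M1 ≤ M → ∀ sg : ℝ, 0 ≤ sg →
      (∀ n : ℕ, r * M ≤ n → (n : ℝ) ≤ (1 - r) * M → s n ≤ sg) →
      2 * s M ≤ kap * z M + sg + K / M)
    (hA1 : kap * A < A') (hA2 : Real.log (1 / r) < A') :
    ∃ B' : ℝ, 0 ≤ B' ∧ ∀ M : ℕ, 1 ≤ M → s M * (Real.log M - B') ≤ A' := by
  obtain ⟨L, hL⟩ : ∃ L, L = Real.log (1 / r) := ⟨_, rfl⟩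
  rw [← hL] at hA2
  have hLpos : 0 < L := by
    rw [hL]
    apply Real.log_pos
    rw [lt_div_iff₀ hr0]
    linarith
  have hApos : 0 < A' := lt_trans hLpos hA2
  have hkA0 : 0 ≤ kap * A := mul_nonneg hkap hA0
  obtain ⟨η, hη⟩ : ∃ η, η = (A' - kap * A) / (K + 1) := ⟨_, rfl⟩
  have hK1 : 0 < K + 1 := by linarith
  have hηpos : 0 < η := by
    rw [hη]
    exact div_pos (sub_pos.mpr hA1) hK1
  have hηeq : η * (K + 1) = A' - kap * A := by
    rw [hη]; field_simp
  obtain ⟨X, hX3, hX⟩ := exists_log_sq_small η hηpos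
  obtain ⟨Dl0, hDl0⟩ : ∃ Dl0, Dl0 = 2 * A' * L / (A' - L) := ⟨_, rfl⟩
  have hAL : 0 < A' - L := sub_pos.mpr hA2
  have hDl0pos : 0 ≤ Dl0 := by rw [hDl0]; positivity
  have hDl0eq : Dl0 * (A' - L) = 2 * A' * L := by rw [hDl0]; field_simp
  obtain ⟨T, hTdef⟩ : ∃ T, T = max X (M1 : ℝ) := ⟨_, rfl⟩
  have hTX : X ≤ T := by rw [hTdef]; exact le_max_left _ _
  have hTM1 : (M1 : ℝ) ≤ T := by rw [hTdef]; exact le_max_right _ _
  have hT3 : 3 ≤ T := le_trans hX3 hTX
  have hTpos : 0 < T := by linarith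
  obtain ⟨B', hB'⟩ : ∃ B', B' = max (Real.log T) (B + Dl0) := ⟨_, rfl⟩
  have hB1 : Real.log T ≤ B' := by rw [hB']; exact le_max_left _ _
  have hB2 : B + Dl0 ≤ B' := by rw [hB']; exact le_max_right _ _
  have hB'0 : 0 ≤ B' := by linarith
  refine ⟨B', hB'0, ?_⟩
  intro M
  induction M using Nat.strong_induction_on with
  | _ M ih =>
    intro hM
    have hMpos : (0:ℝ) < M := by exact_mod_cast hM
    obtain ⟨x, hx⟩ : ∃ x, x = Real.log M - B' := ⟨_, rfl⟩
    rw [← hx]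
    by_cases hxA : x ≤ 2 * A'
    · by_cases hx0 : x ≤ 0
      · nlinarith [hs0 M]
      · nlinarith [hs0 M, hs1 M]
    · have hxA' : 2 * A' < x := not_le.mp hxA
      have hxpos : 0 < x := by linarith
      have hlog : Real.log T < Real.log M := by linarith
      have hTM : T < M := (Real.log_lt_log_iff hTpos hMpos).mp hlog
      have hM1 : M1 ≤ M := by
        have : (M1 : ℝ) ≤ M := by linarith
        exact_mod_cast this
      obtain ⟨e, he⟩ : ∃ e, e = K / M := ⟨_, rfl⟩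
      have heM : e * M = K := by rw [he]; field_simp
      have he0 : 0 ≤ e := by rw [he]; positivity
      obtain ⟨y, hy⟩ : ∃ y, y = x - L := ⟨_, rfl⟩
      have hypos : 0 < y := by rw [hy]; linarith
      obtain ⟨g, hg⟩ : ∃ g, g = A' / y := ⟨_, rfl⟩
      have hgpos : 0 < g := by rw [hg]; positivity
      have hgy : g * y = A' := by rw [hg]; field_simp
      have hwin : ∀ n : ℕ, r * M ≤ n → (n : ℝ) ≤ (1 - r) * M → s n ≤ g := by
        intro n hn1 hn2
        have hnpos : (0:ℝ) < n := lt_of_lt_of_le (mul_pos hr0 hMpos) hn1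
        have hn1' : 1 ≤ n := by
          have : 0 < n := by exact_mod_cast hnpos
          omega
        have hnM : n < M := by
          have : (n:ℝ) < M := by nlinarith
          exact_mod_cast this
        have h1 := ih n hnM hn1'
        have h2 := log_window r hr0 M n hM hn1
        rw [← hL] at h2
        have h3 : y ≤ Real.log n - B' := by rw [hy, hx]; linarith
        rw [hg, le_div_iff₀ hypos]
        calc s n * y ≤ s n * (Real.log n - B') := mul_le_mul_of_nonneg_left h3 (hs0 n)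
          _ ≤ A' := h1
      have H := hT M hM1 g hgpos.le hwin
      rw [← he] at H
      obtain ⟨Dl, hDl⟩ : ∃ Dl, Dl = B' - B := ⟨_, rfl⟩
      have hDlge : Dl0 ≤ Dl := by rw [hDl]; linarith
      have hDlnn : 0 ≤ Dl := le_trans hDl0pos hDlge
      have hxD : x + Dl = Real.log M - B := by rw [hx, hDl]; ring
      have hxDpos : 0 < x + Dl := by linarith
      have hzM : z M * (x + Dl) ≤ A := by rw [hxD]; exact hz M hM
      obtain ⟨l, hl⟩ : ∃ l, l = Real.log M := ⟨_, rfl⟩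
      have hl1 : 1 ≤ l := by
        rw [hl]; exact one_le_log_of_three_le _ (by linarith)
      have hl2 : l ^ 2 ≤ η * M := by
        rw [hl]; exact hX _ (by linarith)
      have hxDl : x + Dl ≤ l ^ 2 := by
        have hll : l ≤ l ^ 2 := le_self_pow₀ hl1 (by norm_num)
        rw [hxD, ← hl]; linarith
      have hsm : e * (x + Dl) ≤ A' - kap * A := by
        calc e * (x + Dl) ≤ e * (η * M) :=
              mul_le_mul_of_nonneg_left (le_trans hxDl hl2) he0
          _ = η * K := by rw [← heM]; ring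
          _ ≤ A' - kap * A := by
              rw [← hηeq]
              have : η * (K + 1) = η * K + η := by ring
              linarith
      have hDl2 : 2 * A' * L ≤ Dl * (A' - L) := by
        rw [← hDl0eq]
        exact mul_le_mul_of_nonneg_right hDlge hAL.le
      have hkey := aux_T A A' L kap e x Dl hLpos hA2 hkA0 hA1 hxA' hDlnn hDl2 hsm
      rw [← hy] at hkey
      -- multiply H by x (x+Dl) y
      have hP : 0 < (x + Dl) * y := mul_pos hxDpos hypos
      have h7 : (2 * (s M * x)) * ((x + Dl) * y) ≤ (2 * A') * ((x + Dl) * y) := by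
        have h8 : (2 * s M) * (x * ((x + Dl) * y)) ≤ (kap * z M + g + e) * (x * ((x + Dl) * y)) :=
          mul_le_mul_of_nonneg_right H (by positivity)
        have h9 : kap * (z M * (x + Dl)) * (x * y) ≤ kap * A * (x * y) := by
          apply mul_le_mul_of_nonneg_right _ (by positivity)
          exact mul_le_mul_of_nonneg_left hzM hkap
        have h10 : (kap * z M + g + e) * (x * ((x + Dl) * y))
            = kap * (z M * (x + Dl)) * (x * y) + (g * y) * x * (x + Dl) + e * x * ((x + Dl) * y) := by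
          ring
        rw [h10, hgy] at h8
        linarith
      have h11 := le_of_mul_le_mul_right h7 hP
      linarith

/-- from `s M * (log M - B') ≤ A'` to `s (2^(j-1)) ≤ c / j` for large `j` -/
theorem s_pow_bound (A' B' c : ℝ) (hA' : 0 < A') (hc : A' < c * Real.log 2)
    (s : ℕ → ℝ) (hs : ∀ M : ℕ, 1 ≤ M → s M * (Real.log M - B') ≤ A') :
    ∃ j0 : ℕ, 1 ≤ j0 ∧ ∀ j : ℕ, j0 ≤ j → s (2 ^ (j - 1)) ≤ c / j := by
  have hl2 : 0 < Real.log 2 := Real.log_pos (by norm_num)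
  have hcpos : 0 < c := by
    by_contra hcon
    have : c * Real.log 2 ≤ 0 := mul_nonpos_of_nonpos_of_nonneg (not_lt.mp hcon) hl2.le
    linarith
  have hgap : 0 < c * Real.log 2 - A' := by linarith
  obtain ⟨j0, hj0⟩ := exists_nat_ge (c * (Real.log 2 + B') / (c * Real.log 2 - A'))
  refine ⟨max j0 1, le_max_right _ _, fun j hj => ?_⟩
  have hj1 : 1 ≤ j := le_trans (le_max_right _ _) hj
  have hjj0 : (j0 : ℝ) ≤ j := by
    have : j0 ≤ j := le_trans (le_max_left _ _) hj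
    exact_mod_cast this
  have hjpos : (0 : ℝ) < j := by exact_mod_cast hj1
  have h1 : c * (Real.log 2 + B') ≤ j * (c * Real.log 2 - A') := by
    have h2 : c * (Real.log 2 + B') / (c * Real.log 2 - A') ≤ j := le_trans hj0 hjj0
    rwa [div_le_iff₀ hgap] at h2
  have hlog : Real.log ((2 ^ (j - 1) : ℕ) : ℝ) = ((j : ℝ) - 1) * Real.log 2 := by
    rw [Nat.cast_pow, Real.log_pow, Nat.cast_sub hj1]
    norm_num
  have h3 := hs (2 ^ (j - 1)) (Nat.one_le_two_pow)
  rw [hlog] at h3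
  -- D := (j-1) log 2 - B' satisfies c * D ≥ A' * j > 0
  obtain ⟨D, hD⟩ : ∃ D, D = ((j : ℝ) - 1) * Real.log 2 - B' := ⟨_, rfl⟩
  rw [← hD] at h3
  have h4 : A' * j ≤ c * D := by rw [hD]; linarith
  have hDpos : 0 < D := by
    have : 0 < c * D := lt_of_lt_of_le (mul_pos hA' hjpos) h4
    exact (mul_pos_iff_of_pos_left hcpos).mp this
  rw [le_div_iff₀ hjpos]
  have h5 : (s (2 ^ (j - 1)) * j) * D ≤ c * D := by
    calc (s (2 ^ (j - 1)) * j) * D = (s (2 ^ (j - 1)) * D) * j := by ring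
      _ ≤ A' * j := mul_le_mul_of_nonneg_right h3 hjpos.le
      _ ≤ c * D := h4
  exact le_of_mul_le_mul_right h5 hDpos

/-- STEP Z + STEP T + passage to powers of two, in one statement. -/
theorem harmonic_main (r K kap c : ℝ) (M1 : ℕ) (hr0 : 0 < r) (hr1 : r ≤ 1 / 2) (hK : 0 ≤ K)
    (hkap : 1 ≤ kap)
    (z s : ℕ → ℝ) (hz0 : ∀ M, 0 ≤ z M) (hz1 : ∀ M, z M ≤ 1)
    (hs0 : ∀ M, 0 ≤ s M) (hs1 : ∀ M, s M ≤ 1 / 2)
    (hZ : ∀ M : ℕ, M1 ≤ M → ∀ g : ℝ, 0 ≤ g →
      (∀ n : ℕ, r * M ≤ n → (n : ℝ) ≤ (1 - r) * M → z n ≤ g) →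
      z M * (1 - K / M + g) ≤ (1 + K / M) * (g + K / M))
    (hT : ∀ M : ℕ, M1 ≤ M → ∀ sg : ℝ, 0 ≤ sg →
      (∀ n : ℕ, r * M ≤ n → (n : ℝ) ≤ (1 - r) * M → s n ≤ sg) →
      2 * s M ≤ kap * z M + sg + K / M)
    (hc : kap * Real.log (1 / r) < c * Real.log 2) :
    ∃ j0 : ℕ, 1 ≤ j0 ∧ ∀ j : ℕ, j0 ≤ j → s (2 ^ (j - 1)) ≤ c / j := by
  have hkpos : 0 < kap := by linarith
  have hLpos : 0 < Real.log (1 / r) := by
    apply Real.log_pos
    rw [lt_div_iff₀ hr0]
    linarith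
  obtain ⟨L, hL⟩ : ∃ L, L = Real.log (1 / r) := ⟨_, rfl⟩
  rw [← hL] at hc hLpos
  obtain ⟨w, hw⟩ : ∃ w, w = c * Real.log 2 := ⟨_, rfl⟩
  rw [← hw] at hc
  -- A between L and w / kap, A' between kap * A and w
  obtain ⟨A, hA⟩ : ∃ A, A = (L + w / kap) / 2 := ⟨_, rfl⟩
  have hwk : L < w / kap := by
    rw [lt_div_iff₀ hkpos]; linarith
  have hLA : L < A := by rw [hA]; linarith
  have hAw : A < w / kap := by rw [hA]; linarith
  have hkA : kap * A < w := by
    rw [lt_div_iff₀ hkpos] at hAw; linarith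
  obtain ⟨A', hA'⟩ : ∃ A', A' = (kap * A + w) / 2 := ⟨_, rfl⟩
  have h1 : kap * A < A' := by rw [hA']; linarith
  have h2 : A' < w := by rw [hA']; linarith
  have hApos : 0 < A := lt_trans hLpos hLA
  have h3 : L < A' := by
    have : A ≤ kap * A := by nlinarith
    linarith
  obtain ⟨B, hB0, hB⟩ := zeta_bound r K A M1 hr0 hr1 hK z hz0 hz1 hZ (by rw [← hL]; exact hLA)
  obtain ⟨B', hB'0, hB'⟩ := s_bound r K A B kap A' M1 hr0 hr1 hK hkpos.le hApos.le hB0 z s hs0 hs1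
    hB hT h1 (by rw [← hL]; exact h3)
  exact s_pow_bound A' B' c (lt_trans hLpos h3) (by rw [← hw]; exact h2) s hB'

lemma num_two_fifths : (20 / 19 : ℝ) * Real.log (1 / (2 / 5)) < 17 / 10 * Real.log 2 := by
  have h1 : (1 / (2 / 5) : ℝ) = 5 / 2 := by norm_num
  rw [h1]
  have h2 : Real.log ((5 / 2 : ℝ) ^ 2) < Real.log ((2 : ℝ) ^ 3) :=
    Real.log_lt_log (by positivity) (by norm_num)
  rw [Real.log_pow, Real.log_pow] at h2
  push_cast at h2
  have h3 : 0 < Real.log 2 := Real.log_pos (by norm_num)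
  linarith

/-- the instance `r = 2/5`, `kap = 20/19`, `c = 17/10`, windows written in `ℕ`. -/
theorem harmonic_two_fifths (K : ℝ) (M1 : ℕ) (hK : 0 ≤ K)
    (z s : ℕ → ℝ) (hz0 : ∀ M, 0 ≤ z M) (hz1 : ∀ M, z M ≤ 1)
    (hs0 : ∀ M, 0 ≤ s M) (hs1 : ∀ M, s M ≤ 1 / 2)
    (hZ : ∀ M : ℕ, M1 ≤ M → ∀ g : ℝ, 0 ≤ g →
      (∀ n : ℕ, 2 * M ≤ 5 * n → 5 * n ≤ 3 * M → z n ≤ g) →
      z M * (1 - K / M + g) ≤ (1 + K / M) * (g + K / M))
    (hT : ∀ M : ℕ, M1 ≤ M → ∀ sg : ℝ, 0 ≤ sg →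
      (∀ n : ℕ, 2 * M ≤ 5 * n → 5 * n ≤ 3 * M → s n ≤ sg) →
      2 * s M ≤ 20 / 19 * z M + sg + K / M) :
    ∃ j0 : ℕ, ∀ j : ℕ, j0 ≤ j → s (2 ^ j) ≤ (17 / 10) / ((j : ℝ) + 1) := by
  have hwin : ∀ (f : ℕ → ℝ) (M : ℕ) (g : ℝ),
      (∀ n : ℕ, (2 / 5 : ℝ) * M ≤ n → (n : ℝ) ≤ (1 - 2 / 5) * M → f n ≤ g) →
      ∀ n : ℕ, 2 * M ≤ 5 * n → 5 * n ≤ 3 * M → f n ≤ g := by
    intro f M g h n h1 h2
    have h1' : (2 : ℝ) * M ≤ 5 * n := by exact_mod_cast h1
    have h2' : (5 : ℝ) * n ≤ 3 * M := by exact_mod_cast h2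
    exact h n (by linarith) (by linarith)
  obtain ⟨j0, _, hj0⟩ := harmonic_main (2 / 5) K (20 / 19) (17 / 10) M1 (by norm_num) (by norm_num)
    hK (by norm_num) z s hz0 hz1 hs0 hs1
    (fun M hM g hg h => hZ M hM g hg (hwin z M g h))
    (fun M hM g hg h => hT M hM g hg (hwin s M g h)) num_two_fifths
  refine ⟨j0, fun j hj => ?_⟩
  have h := hj0 (j + 1) (by omega)
  rw [Nat.add_sub_cancel] at h
  push_cast at h
  exact h

end Vale.Agent.P162
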