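import Vale.Agent.P162.Scalar.PotentialW

/-!
Scalar end-game, part 2: explicit contraction rate when `s_j ≤ min (1/2) (c / (j - B))`.
-/

namespace Vale.Agent.P162.ScalarW

open Finset

/-- The upper bound used for the contraction constants. -/
noncomputable def sbar (c : ℝ) (B : ℕ) (j : ℕ) : ℝ :=
  if j ≤ B + 4 then 1 / 2 else c / ((j : ℝ) - B)

theorem sbar_nonneg (c : ℝ) (hc : 0 ≤ c) (B j : ℕ) : 0 ≤ sbar c B j := by
  unfold sbar
  split_ifs with h
  · norm_num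
  · have : (B : ℝ) + 4 < j := by exact_mod_cast (not_le.mp h)
    exact div_nonneg hc (by linarith)

theorem sbar_le_half (c : ℝ) (hc : c ≤ 2) (B j : ℕ) : sbar c B j ≤ 1 / 2 := by
  unfold sbar
  split_ifs with h
  · exact le_rfl
  · have : (B : ℝ) + 4 < j := by exact_mod_cast (not_le.mp h)
    rw [div_le_iff₀ (by linarith)]
    linarith

theorem Wt_sbar_small (c : ℝ) (B k : ℕ) (hk1 : 1 ≤ k) (hk : k ≤ B + 4) :
    Wt (sbar c B) k = (1 / 2) ^ (k - 1) := by
  induction k with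
  | zero => omega
  | succ k ih =>
    rcases Nat.eq_zero_or_pos k with rfl | hpos
    · simp [Wt_one]
    · rw [Wt_succ _ k hpos, ih hpos (by omega)]
      have : sbar c B (k + 1) = 1 / 2 := by unfold sbar; rw [if_pos hk]
      rw [this]
      obtain ⟨k', rfl⟩ : ∃ k', k = k' + 1 := ⟨k - 1, by omega⟩
      simp only [Nat.add_sub_cancel]
      rw [pow_succ]
      norm_num

theorem Wt_sbar_succ (c : ℝ) (B k : ℕ) (hk : B + 4 ≤ k) :
    Wt (sbar c B) (k + 1) = Wt (sbar c B) k * (1 - c / (((k : ℝ) + 1) - B)) := by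
  rw [Wt_succ _ k (by omega)]
  have : sbar c B (k + 1) = c / (((k : ℝ) + 1) - B) := by
    unfold sbar
    rw [if_neg (by omega)]
    push_cast
    ring
  rw [this]

/-- Upper bound `W k * k ^ c ≤ (B + 4) ^ c`. -/
theorem Wt_sbar_upper (c : ℝ) (hc1 : 1 ≤ c) (hc2 : c ≤ 2) (B k : ℕ) (hk1 : 1 ≤ k) :
    Wt (sbar c B) k * (k : ℝ) ^ c ≤ ((B : ℝ) + 4) ^ c := by
  have hc0 : 0 ≤ c := by linarith
  have hW1 : ∀ k, Wt (sbar c B) k ≤ 1 := Wt_le_one _ (sbar_nonneg c hc0 B)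
    (fun j => le_trans (sbar_le_half c hc2 B j) (by norm_num))
  have hW0 : ∀ k, 0 ≤ Wt (sbar c B) k := Wt_nonneg _
    (fun j => le_trans (sbar_le_half c hc2 B j) (by norm_num))
  rcases le_total k (B + 4) with h | h
  · have h1 : (k : ℝ) ^ c ≤ ((B : ℝ) + 4) ^ c := by
      apply Real.rpow_le_rpow (by positivity) _ hc0
      exact_mod_cast h
    calc Wt (sbar c B) k * (k : ℝ) ^ c ≤ 1 * (k : ℝ) ^ c :=
          mul_le_mul_of_nonneg_right (hW1 k) (by positivity)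
      _ ≤ _ := by rw [one_mul]; exact h1
  · induction k, h using Nat.le_induction with
    | base =>
      calc Wt (sbar c B) (B + 4) * ((B + 4 : ℕ) : ℝ) ^ c ≤ 1 * ((B + 4 : ℕ) : ℝ) ^ c :=
            mul_le_mul_of_nonneg_right (hW1 _) (by positivity)
        _ = _ := by rw [one_mul]; push_cast; ring_nf
    | succ k hk ih =>
      have ih' := ih (by omega)
      rw [Wt_sbar_succ c B k hk]
      have hkpos : (0 : ℝ) < k := by exact_mod_cast (by omega : 0 < k)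
      have hkB : (B : ℝ) + 4 ≤ k := by exact_mod_cast hk
      have hBnn : (0 : ℝ) ≤ B := by positivity
      -- 1 - c/(k+1-B) ≤ 1 - c/(k+1) ≤ (k/(k+1))^c
      have h1 : 1 - c / (((k : ℝ) + 1) - B) ≤ 1 - c / ((k : ℝ) + 1) := by
        have : c / ((k : ℝ) + 1) ≤ c / (((k : ℝ) + 1) - B) :=
          div_le_div_of_nonneg_left hc0 (by linarith) (by linarith)
        linarith
      have h2 : 1 - c / ((k : ℝ) + 1) ≤ ((k : ℝ) / ((k : ℝ) + 1)) ^ c := by
        have hb := one_add_mul_self_le_rpow_one_add (s := -(1 / ((k : ℝ) + 1))) (p := c)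
          (by
            have : 1 / ((k : ℝ) + 1) ≤ 1 := by
              rw [div_le_one (by linarith)]; linarith
            linarith) hc1
        have e1 : 1 + c * -(1 / ((k : ℝ) + 1)) = 1 - c / ((k : ℝ) + 1) := by ring
        have e2 : 1 + -(1 / ((k : ℝ) + 1)) = (k : ℝ) / ((k : ℝ) + 1) := by
          field_simp
          ring
        rw [e1, e2] at hb
        exact hb
      have h3 : ((k : ℝ) / ((k : ℝ) + 1)) ^ c * (((k + 1 : ℕ) : ℝ)) ^ c = (k : ℝ) ^ c := by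
        rw [← Real.mul_rpow (by positivity) (by positivity)]
        congr 1
        push_cast
        field_simp
      calc Wt (sbar c B) k * (1 - c / (((k : ℝ) + 1) - B)) * (((k + 1 : ℕ) : ℝ)) ^ c
          ≤ Wt (sbar c B) k * (((k : ℝ) / ((k : ℝ) + 1)) ^ c) * (((k + 1 : ℕ) : ℝ)) ^ c := by
            apply mul_le_mul_of_nonneg_right _ (by positivity)
            exact mul_le_mul_of_nonneg_left (le_trans h1 h2) (hW0 k)
        _ = Wt (sbar c B) k * (k : ℝ) ^ c := by rw [mul_assoc, h3]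
        _ ≤ _ := ih'

/-- Lower bound `(1/2)^(B+3) * k ^ (-c) ≤ W k`. -/
theorem Wt_sbar_lower (c : ℝ) (hc1 : 1 ≤ c) (hc2 : c ≤ 2) (B k : ℕ) (hk1 : 1 ≤ k) :
    (1 / 2 : ℝ) ^ (B + 3) * (k : ℝ) ^ (-c) ≤ Wt (sbar c B) k := by
  have hc0 : 0 ≤ c := by linarith
  have hW0 : ∀ k, 0 ≤ Wt (sbar c B) k := Wt_nonneg _
    (fun j => le_trans (sbar_le_half c hc2 B j) (by norm_num))
  have hk1' : (1 : ℝ) ≤ k := by exact_mod_cast hk1
  rcases le_total k (B + 4) with h | h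
  · rw [Wt_sbar_small c B k hk1 h]
    have h1 : (k : ℝ) ^ (-c) ≤ 1 := Real.rpow_le_one_of_one_le_of_nonpos hk1' (by linarith)
    have h2 : (1 / 2 : ℝ) ^ (B + 3) ≤ (1 / 2 : ℝ) ^ (k - 1) :=
      pow_le_pow_of_le_one (by norm_num) (by norm_num) (by omega)
    calc (1 / 2 : ℝ) ^ (B + 3) * (k : ℝ) ^ (-c) ≤ (1 / 2 : ℝ) ^ (B + 3) * 1 :=
          mul_le_mul_of_nonneg_left h1 (by positivity)
      _ ≤ _ := by rw [mul_one]; exact h2
  · have key : (1 / 2 : ℝ) ^ (B + 3) ≤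
        Wt (sbar c B) k * ((((k : ℝ) - B) - 1) * ((k : ℝ) - B)) ^ (c / 2) := by
      clear hk1 hk1'
      induction k, h using Nat.le_induction with
      | base =>
        rw [Wt_sbar_small c B (B + 4) (by omega) le_rfl]
        have e : (((((B + 4 : ℕ) : ℝ) - B) - 1) * (((B + 4 : ℕ) : ℝ) - B)) = 12 := by
          push_cast; ring
        rw [e]
        have h12 : (1 : ℝ) ≤ (12 : ℝ) ^ (c / 2) := Real.one_le_rpow (by norm_num) (by linarith)
        have e2 : B + 4 - 1 = B + 3 := by omega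
        rw [e2]
        calc (1 / 2 : ℝ) ^ (B + 3) = (1 / 2 : ℝ) ^ (B + 3) * 1 := by ring
          _ ≤ _ := mul_le_mul_of_nonneg_left h12 (by positivity)
      | succ k hk ih =>
        rw [Wt_sbar_succ c B k hk]
        have hkB : (B : ℝ) + 4 ≤ k := by exact_mod_cast hk
        set x : ℝ := ((k : ℝ) + 1) - B with hx
        have hx5 : 5 ≤ x := by rw [hx]; linarith
        have hb := rpow_one_add_le_one_add_mul_self (s := -(2 / x)) (p := c / 2)
          (by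
            have : 2 / x ≤ 1 := by rw [div_le_one (by linarith)]; linarith
            linarith) (by linarith) (by linarith)
        have e1 : 1 + c / 2 * -(2 / x) = 1 - c / x := by ring
        have e2 : 1 + -(2 / x) = (x - 2) / x := by
          field_simp
          ring
        rw [e1, e2] at hb
        have e3 : ((((k + 1 : ℕ) : ℝ) - B) - 1) * (((k + 1 : ℕ) : ℝ) - B) = (x - 1) * x := by
          rw [hx]; push_cast; ring
        have e4 : (((k : ℝ) - B) - 1) * ((k : ℝ) - B) = (x - 2) * (x - 1) := by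
          rw [hx]; ring
        rw [e3]
        rw [e4] at ih
        have h3 : ((x - 2) / x) ^ (c / 2) * ((x - 1) * x) ^ (c / 2) =
            ((x - 2) * (x - 1)) ^ (c / 2) := by
          rw [← Real.mul_rpow (div_nonneg (by linarith) (by linarith))
            (mul_nonneg (by linarith) (by linarith))]
          congr 1
          field_simp
        calc (1 / 2 : ℝ) ^ (B + 3) ≤ Wt (sbar c B) k * ((x - 2) * (x - 1)) ^ (c / 2) := ih
          _ = Wt (sbar c B) k * ((x - 2) / x) ^ (c / 2) * ((x - 1) * x) ^ (c / 2) := by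
              rw [mul_assoc, h3]
          _ ≤ Wt (sbar c B) k * (1 - c / x) * ((x - 1) * x) ^ (c / 2) := by
              apply mul_le_mul_of_nonneg_right _
                (Real.rpow_nonneg (mul_nonneg (by linarith) (by linarith)) _)
              exact mul_le_mul_of_nonneg_left hb (hW0 k)
    have hkB : (B : ℝ) + 4 ≤ k := by exact_mod_cast h
    have hBnn : (0 : ℝ) ≤ B := by positivity
    have hkpos : (0 : ℝ) < k := by linarith
    have hY : ((((k : ℝ) - B) - 1) * ((k : ℝ) - B)) ^ (c / 2) ≤ (k : ℝ) ^ c := by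
      have h1 : ((((k : ℝ) - B) - 1) * ((k : ℝ) - B)) ≤ (k : ℝ) ^ (2 : ℝ) := by
        rw [Real.rpow_two]
        nlinarith
      calc ((((k : ℝ) - B) - 1) * ((k : ℝ) - B)) ^ (c / 2) ≤ ((k : ℝ) ^ (2 : ℝ)) ^ (c / 2) :=
            Real.rpow_le_rpow (mul_nonneg (by linarith) (by linarith)) h1 (by linarith)
        _ = (k : ℝ) ^ c := by
            rw [← Real.rpow_mul hkpos.le]
            congr 1
            ring
    have h2 : (1 / 2 : ℝ) ^ (B + 3) ≤ Wt (sbar c B) k * (k : ℝ) ^ c :=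
      le_trans key (mul_le_mul_of_nonneg_left hY (hW0 k))
    calc (1 / 2 : ℝ) ^ (B + 3) * (k : ℝ) ^ (-c) ≤ Wt (sbar c B) k * (k : ℝ) ^ c * (k : ℝ) ^ (-c) :=
          mul_le_mul_of_nonneg_right h2 (Real.rpow_nonneg hkpos.le _)
      _ = Wt (sbar c B) k := by
          rw [mul_assoc, ← Real.rpow_add hkpos]
          simp

/-- The constant bounding `∑ W k`. -/
noncomputable def K1 (c : ℝ) (B : ℕ) : ℝ :=
  ((B : ℝ) + 4) ^ c * ∑' n : ℕ, 1 / (((n + 1 : ℕ) : ℝ)) ^ c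

theorem summable_shift (c : ℝ) (hc1 : 1 < c) :
    Summable (fun n : ℕ => 1 / (((n + 1 : ℕ) : ℝ)) ^ c) :=
  (summable_nat_add_iff 1).mpr (Real.summable_one_div_nat_rpow.mpr hc1)

theorem one_le_K1 (c : ℝ) (hc1 : 1 < c) (B : ℕ) : 1 ≤ K1 c B := by
  unfold K1
  have h1 : (1 : ℝ) ≤ ((B : ℝ) + 4) ^ c :=
    Real.one_le_rpow (by have : (0 : ℝ) ≤ B := by positivity
                         linarith) (by linarith)
  have h2 : (1 : ℝ) ≤ ∑' n : ℕ, 1 / (((n + 1 : ℕ) : ℝ)) ^ c := by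
    have h := (summable_shift c hc1).sum_le_tsum (Finset.range 1)
      (fun i _ => by positivity)
    simpa using h
  calc (1 : ℝ) = 1 * 1 := by ring
    _ ≤ _ := mul_le_mul h1 h2 (by norm_num) (by linarith)

theorem sumW_le (c : ℝ) (hc1 : 1 < c) (hc2 : c ≤ 2) (B e : ℕ) :
    ∑ i ∈ range e, Wt (sbar c B) (i + 1) ≤ K1 c B := by
  unfold K1
  have h1 : ∀ i ∈ range e, Wt (sbar c B) (i + 1) ≤
      ((B : ℝ) + 4) ^ c * (1 / (((i + 1 : ℕ) : ℝ)) ^ c) := by
    intro i _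
    have h := Wt_sbar_upper c hc1.le hc2 B (i + 1) (by omega)
    have hpos : (0 : ℝ) < (((i + 1 : ℕ) : ℝ)) ^ c := by positivity
    rw [mul_one_div, le_div_iff₀ hpos]
    exact h
  calc ∑ i ∈ range e, Wt (sbar c B) (i + 1)
      ≤ ∑ i ∈ range e, ((B : ℝ) + 4) ^ c * (1 / (((i + 1 : ℕ) : ℝ)) ^ c) := Finset.sum_le_sum h1
    _ = ((B : ℝ) + 4) ^ c * ∑ i ∈ range e, (1 / (((i + 1 : ℕ) : ℝ)) ^ c) := by
        rw [Finset.mul_sum]
    _ ≤ _ := by
        apply mul_le_mul_of_nonneg_left _ (by positivity)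
        exact (summable_shift c hc1).sum_le_tsum _ (fun i _ => by positivity)

theorem exp_six_bound (d : ℕ) : 8 * ((d : ℝ) * ((d : ℝ) * 2 ^ d)) ≤ Real.exp (6 * d) := by
  have h1 : (2 : ℝ) ^ d ≤ Real.exp d := by
    have : (2 : ℝ) ≤ Real.exp 1 := by
      have := Real.add_one_le_exp (1 : ℝ)
      linarith
    calc (2 : ℝ) ^ d ≤ (Real.exp 1) ^ d := pow_le_pow_left₀ (by norm_num) this d
      _ = Real.exp d := by rw [← Real.exp_nat_mul]; simp
  have h2 : (d : ℝ) ≤ Real.exp d := by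
    have := Real.add_one_le_exp (d : ℝ)
    linarith
  have hd : (0 : ℝ) ≤ d := by positivity
  rcases Nat.eq_zero_or_pos d with rfl | hpos
  · simp
  · have h3 : (8 : ℝ) ≤ Real.exp (3 * d) := by
      have hd1 : (1 : ℝ) ≤ d := by exact_mod_cast hpos
      have h2e : (2 : ℝ) ≤ Real.exp 1 := by
        have := Real.add_one_le_exp (1 : ℝ)
        linarith
      calc (8 : ℝ) = 2 ^ 3 := by norm_num
        _ ≤ (Real.exp 1) ^ 3 := pow_le_pow_left₀ (by norm_num) h2e 3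
        _ = Real.exp 3 := by rw [← Real.exp_nat_mul]; norm_num
        _ ≤ Real.exp (3 * d) := Real.exp_le_exp.mpr (by linarith)
    have e : Real.exp (6 * d) = Real.exp (3 * d) * (Real.exp d * (Real.exp d * Real.exp d)) := by
      rw [← Real.exp_add, ← Real.exp_add, ← Real.exp_add]
      congr 1
      ring
    rw [e]
    have hp : (0 : ℝ) ≤ 2 ^ d := by positivity
    exact mul_le_mul h3 (mul_le_mul h2 (mul_le_mul h2 h1 hp (Real.exp_pos _).le)
      (mul_nonneg hd hp) (Real.exp_pos _).le) (mul_nonneg hd (mul_nonneg hd hp))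
      (Real.exp_pos _).le

/-- (C) End-game: if the recursion holds with the constants `sbar c B`, `1 < c ≤ 2`, then after
`C * d ^ (1 + c)` steps the divergence is at most `1 / 8`. -/
theorem endgame (c : ℝ) (hc1 : 1 < c) (hc2 : c ≤ 2) (B : ℕ) :
    ∃ C : ℝ, 0 < C ∧ ∀ d : ℕ, 1 ≤ d → ∀ S : ℕ → ℕ → ℝ, (∀ t j, 0 ≤ S t j) →
      (∀ t, S t d = 0) →
      (∀ t j, 1 ≤ j → j ≤ d →
        S (t + 1) (j - 1) ≤ (1 - sbar c B j) * S t j + sbar c B j * S t 1) →
      (∀ j, S 0 j ≤ (d : ℝ) * 2 ^ d) →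
      ∀ t : ℕ, C * (d : ℝ) ^ (1 + c) ≤ t → S t 0 ≤ 1 / 8 := by
  have hc0 : 0 ≤ c := by linarith
  have hK1 := one_le_K1 c hc1 B
  set k0 : ℝ := (1 / 2 : ℝ) ^ (B + 3) / K1 c B with hk0
  have hk0pos : 0 < k0 := by rw [hk0]; positivity
  have hk0lt : k0 < 1 := by
    rw [hk0, div_lt_one (by linarith)]
    have : (1 / 2 : ℝ) ^ (B + 3) < 1 := pow_lt_one₀ (by norm_num) (by norm_num) (by omega)
    linarith
  refine ⟨1 + 6 / k0, by positivity, ?_⟩
  intro d hd S hS0 hSd hrec hD0 t ht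
  have hd1 : (1 : ℝ) ≤ d := by exact_mod_cast hd
  have hdpos : (0 : ℝ) < d := by linarith
  have hdc : (d : ℝ) ≤ (d : ℝ) ^ (1 + c) := by
    calc (d : ℝ) = (d : ℝ) ^ (1 : ℝ) := (Real.rpow_one _).symm
      _ ≤ (d : ℝ) ^ (1 + c) := Real.rpow_le_rpow_of_exponent_le hd1 (by linarith)
  have hpw : 0 < (d : ℝ) ^ (1 + c) := by positivity
  have htd : (d : ℝ) + 6 / k0 * (d : ℝ) ^ (1 + c) ≤ t := by
    have : (1 + 6 / k0) * (d : ℝ) ^ (1 + c) = (d : ℝ) ^ (1 + c) + 6 / k0 * (d : ℝ) ^ (1 + c) := by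
      ring
    linarith
  have htd' : d ≤ t := by
    have : (d : ℝ) ≤ t := by
      have : 0 ≤ 6 / k0 * (d : ℝ) ^ (1 + c) := by positivity
      linarith
    exact_mod_cast this
  obtain ⟨u, rfl⟩ : ∃ u, t = d + u := ⟨t - d, by omega⟩
  have hu : 6 / k0 * (d : ℝ) ^ (1 + c) ≤ u := by
    push_cast at htd
    linarith
  obtain ⟨e, rfl⟩ : ∃ e, d = e + 1 := ⟨d - 1, by omega⟩
  rcases Nat.eq_zero_or_pos e with rfl | hepos
  · -- d = 1
    have h1 := hrec u 1 le_rfl le_rfl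
    have h2 := hSd u
    simp only [Nat.sub_self, zero_add] at h1 h2
    have e1 : 0 + 1 + u = u + 1 := by omega
    rw [e1]
    rw [h2] at h1
    have : S (u + 1) 0 ≤ 0 := by linarith
    linarith
  · set δ : ℝ := k0 * (((e + 1 : ℕ) : ℝ)) ^ (-c) with hδ
    have hpc : 0 < (((e + 1 : ℕ) : ℝ)) ^ (-c) := by positivity
    have hpc1 : (((e + 1 : ℕ) : ℝ)) ^ (-c) ≤ 1 :=
      Real.rpow_le_one_of_one_le_of_nonpos hd1 (by linarith)
    have hδ0 : 0 < δ := by rw [hδ]; positivity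
    have hδ1 : δ < 1 := by
      calc δ ≤ k0 * 1 := by rw [hδ]; exact mul_le_mul_of_nonneg_left hpc1 hk0pos.le
        _ < 1 := by linarith
    have hδW : δ * ∑ i ∈ range e, Wt (sbar c B) (i + 1) ≤ Wt (sbar c B) (e + 1) := by
      have hlow := Wt_sbar_lower c hc1.le hc2 B (e + 1) (by omega)
      have hsum := sumW_le c hc1 hc2 B e
      calc δ * ∑ i ∈ range e, Wt (sbar c B) (i + 1) ≤ δ * K1 c B :=
            mul_le_mul_of_nonneg_left hsum hδ0.le
        _ = (1 / 2 : ℝ) ^ (B + 3) * (((e + 1 : ℕ) : ℝ)) ^ (-c) := by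
            rw [hδ, hk0]
            field_simp
        _ ≤ _ := hlow
    have hdec := potential_decay e hepos (sbar c B) (sbar_nonneg c hc0 B)
      (fun j => le_trans (sbar_le_half c hc2 B j) (by norm_num)) S hS0 hSd hrec
      ((((e + 1 : ℕ) : ℝ)) * 2 ^ (e + 1)) hD0 δ hδ0 hδ1 hδW u
    have e1 : e + 1 + u = e + u + 1 := by omega
    rw [e1]
    have hexp : (1 - δ) ^ u ≤ Real.exp (-(δ * u)) := by
      calc (1 - δ) ^ u ≤ (Real.exp (-δ)) ^ u :=
            pow_le_pow_left₀ (by linarith) (Real.one_sub_le_exp_neg δ) u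
        _ = Real.exp (-(δ * u)) := by
            rw [← Real.exp_nat_mul]
            congr 1
            ring
    have hδu : 6 * (((e + 1 : ℕ) : ℝ)) ≤ δ * u := by
      have h1 : δ * (6 / k0 * (((e + 1 : ℕ) : ℝ)) ^ (1 + c)) ≤ δ * u :=
        mul_le_mul_of_nonneg_left hu hδ0.le
      have h2 : δ * (6 / k0 * (((e + 1 : ℕ) : ℝ)) ^ (1 + c)) = 6 * (((e + 1 : ℕ) : ℝ)) := by
        rw [hδ]
        have : (((e + 1 : ℕ) : ℝ)) ^ (-c) * (((e + 1 : ℕ) : ℝ)) ^ (1 + c) = (((e + 1 : ℕ) : ℝ)) := by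
          rw [← Real.rpow_add hdpos]
          simp
        calc k0 * (((e + 1 : ℕ) : ℝ)) ^ (-c) * (6 / k0 * (((e + 1 : ℕ) : ℝ)) ^ (1 + c))
            = (k0 * (6 / k0)) * ((((e + 1 : ℕ) : ℝ)) ^ (-c) * (((e + 1 : ℕ) : ℝ)) ^ (1 + c)) := by
              ring
          _ = 6 * (((e + 1 : ℕ) : ℝ)) := by
              rw [this]
              field_simp
      linarith
    have hbig := exp_six_bound (e + 1)
    have hele : (e : ℝ) ≤ (((e + 1 : ℕ) : ℝ)) := by push_cast; linarith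
    have hX : (e : ℝ) * ((((e + 1 : ℕ) : ℝ)) * 2 ^ (e + 1)) ≤ Real.exp (δ * u) / 8 := by
      have h1 : Real.exp (6 * (((e + 1 : ℕ) : ℝ))) ≤ Real.exp (δ * u) := Real.exp_le_exp.mpr hδu
      have h2 : (e : ℝ) * ((((e + 1 : ℕ) : ℝ)) * 2 ^ (e + 1)) ≤
          (((e + 1 : ℕ) : ℝ)) * ((((e + 1 : ℕ) : ℝ)) * 2 ^ (e + 1)) :=
        mul_le_mul_of_nonneg_right hele (by positivity)
      linarith
    calc S (e + u + 1) 0 ≤ (1 - δ) ^ u * (e * ((((e + 1 : ℕ) : ℝ)) * 2 ^ (e + 1))) := hdec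
      _ ≤ Real.exp (-(δ * u)) * (Real.exp (δ * u) / 8) :=
          mul_le_mul hexp hX (by positivity) (Real.exp_pos _).le
      _ = 1 / 8 := by
          rw [Real.exp_neg]
          field_simp

/-- The same with the true constants `s j ≤ sbar c B j` and monotone `S t`. -/
theorem endgame' (c : ℝ) (hc1 : 1 < c) (hc2 : c ≤ 2) (B : ℕ) :
    ∃ C : ℝ, 0 < C ∧ ∀ d : ℕ, 1 ≤ d → ∀ (s : ℕ → ℝ) (S : ℕ → ℕ → ℝ),
      (∀ j, s j ≤ sbar c B j) → (∀ t j, 0 ≤ S t j) → (∀ t, S t d = 0) →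
      (∀ t j, 1 ≤ j → S t j ≤ S t 1) →
      (∀ t j, 1 ≤ j → j ≤ d → S (t + 1) (j - 1) ≤ (1 - s j) * S t j + s j * S t 1) →
      (∀ j, S 0 j ≤ (d : ℝ) * 2 ^ d) →
      ∀ t : ℕ, C * (d : ℝ) ^ (1 + c) ≤ t → S t 0 ≤ 1 / 8 := by
  obtain ⟨C, hC, h⟩ := endgame c hc1 hc2 B
  refine ⟨C, hC, ?_⟩
  intro d hd s S hs hS0 hSd hmono hrec hD0 t ht
  refine h d hd S hS0 hSd ?_ hD0 t ht
  intro t j hj1 hjd
  have h1 := hrec t j hj1 hjd
  have h2 := hmono t j hj1
  have h3 := hs j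
  nlinarith [mul_nonneg (sub_nonneg.mpr h3) (sub_nonneg.mpr h2)]

end Vale.Agent.P162.ScalarW
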