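import Mathlib

/-!
# P162 : the scalar layer of the weighted potential argument

`S t j` stands for the divergence of the columns `j, ..., d - 1` of the deck at time `t`; the
one-step inequality is `S (t+1) (j-1) ≤ (1 - s j) * S t j + s j * S t 1`.
-/

namespace Vale.Agent.P162

open Finset

/-- shift of a sum over `Ico 1 d`. -/
theorem sum_Ico_shift (f : ℕ → ℝ) (d : ℕ) (hd : 1 ≤ d) :
    ∑ k ∈ Ico 1 d, f (k + 1) = ∑ k ∈ Ico 1 d, f k - f 1 + f d := by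
  induction d, hd using Nat.le_induction with
  | base => simp
  | succ n hn ih =>
    rw [Finset.sum_Ico_succ_top hn, Finset.sum_Ico_succ_top hn, ih]
    ring

/-- the products `∏_{i=2}^{k} (1 - s i)`. -/
noncomputable def piS (s : ℕ → ℝ) : ℕ → ℝ
  | 0 => 1
  | 1 => 1
  | (k + 2) => piS s (k + 1) * (1 - s (k + 2))

theorem piS_succ (s : ℕ → ℝ) (k : ℕ) (hk : 1 ≤ k) :
    piS s (k + 1) = piS s k * (1 - s (k + 1)) := by
  obtain ⟨m, rfl⟩ : ∃ m, k = m + 1 := ⟨k - 1, by omega⟩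
  rfl

theorem piS_pos (s : ℕ → ℝ) (sg : ℝ) (hsg : sg < 1) (hs : ∀ j, s j ≤ sg) (k : ℕ) :
    0 < piS s k := by
  induction k using Nat.strong_induction_on with
  | _ k ih =>
    match k with
    | 0 => simp [piS]
    | 1 => simp [piS]
    | (m + 2) =>
      have h1 := ih (m + 1) (by omega)
      have h2 := hs (m + 2)
      show 0 < piS s (m + 1) * (1 - s (m + 2))
      exact mul_pos h1 (by linarith)

theorem piS_le_one (s : ℕ → ℝ) (sg : ℝ) (hsg : sg < 1) (hs0 : ∀ j, 0 ≤ s j)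
    (hs : ∀ j, s j ≤ sg) (k : ℕ) : piS s k ≤ 1 := by
  induction k using Nat.strong_induction_on with
  | _ k ih =>
    match k with
    | 0 => simp [piS]
    | 1 => simp [piS]
    | (m + 2) =>
      have h1 := ih (m + 1) (by omega)
      have h2 := hs (m + 2)
      have h3 := hs0 (m + 2)
      have h4 := piS_pos s sg hsg hs (m + 1)
      show piS s (m + 1) * (1 - s (m + 2)) ≤ 1
      nlinarith

/-- One step of the weighted potential. -/
theorem potential_step (d : ℕ) (hd : 1 ≤ d) (s w : ℕ → ℝ) (lam : ℝ) (A A' : ℕ → ℝ)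
    (hw0 : ∀ k, 0 ≤ w k)
    (hw : ∀ k, 1 ≤ k → k < d → w k * (1 - s (k + 1)) = lam * w (k + 1))
    (hcond : (1 - lam) * ∑ k ∈ Ico 1 d, w k ≤ lam * w d)
    (hA1 : 0 ≤ A 1) (hAd : A d = 0)
    (hrec : ∀ j, 1 ≤ j → j ≤ d → A' (j - 1) ≤ (1 - s j) * A j + s j * A 1) :
    ∑ k ∈ Ico 1 d, w k * A' k ≤ lam * ∑ k ∈ Ico 1 d, w k * A k := by
  have h1 : ∑ k ∈ Ico 1 d, w k * A' k
      ≤ ∑ k ∈ Ico 1 d, (lam * (w (k + 1) * A (k + 1)) + A 1 * (w k - lam * w (k + 1))) := by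
    apply Finset.sum_le_sum
    intro k hk
    rw [Finset.mem_Ico] at hk
    have h := hrec (k + 1) (by omega) (by omega)
    simp only [Nat.add_sub_cancel] at h
    have h2 := hw k hk.1 hk.2
    have h3 := mul_le_mul_of_nonneg_left h (hw0 k)
    calc w k * A' k ≤ w k * ((1 - s (k + 1)) * A (k + 1) + s (k + 1) * A 1) := h3
      _ = (w k * (1 - s (k + 1))) * A (k + 1) + A 1 * (w k - w k * (1 - s (k + 1))) := by ring
      _ = lam * (w (k + 1) * A (k + 1)) + A 1 * (w k - lam * w (k + 1)) := by rw [h2]; ring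
  have h2 : ∑ k ∈ Ico 1 d, (lam * (w (k + 1) * A (k + 1)) + A 1 * (w k - lam * w (k + 1)))
      = lam * ∑ k ∈ Ico 1 d, w k * A k
        + A 1 * ((1 - lam) * ∑ k ∈ Ico 1 d, w k - lam * w d) := by
    have e1 := sum_Ico_shift (fun k => w k * A k) d hd
    have e2 := sum_Ico_shift w d hd
    rw [Finset.sum_add_distrib, ← Finset.mul_sum, ← Finset.mul_sum, Finset.sum_sub_distrib,
      ← Finset.mul_sum, e1, e2, hAd]
    ring
  have h3 : A 1 * ((1 - lam) * ∑ k ∈ Ico 1 d, w k - lam * w d) ≤ 0 :=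
    mul_nonpos_of_nonneg_of_nonpos hA1 (by linarith)
  linarith


theorem piS_anti (s : ℕ → ℝ) (sg : ℝ) (hsg : sg < 1) (hs0 : ∀ j, 0 ≤ s j)
    (hs : ∀ j, s j ≤ sg) (k d : ℕ) (hk : 1 ≤ k) (hkd : k ≤ d) : piS s d ≤ piS s k := by
  induction d, hkd using Nat.le_induction with
  | base => exact le_refl _
  | succ n hn ih =>
    rw [piS_succ s n (by omega)]
    have h1 := piS_pos s sg hsg hs n
    have h2 := hs0 (n + 1)
    nlinarith

/-- for large `i`, `(i/(i+1))^c1 ≤ 1 - c/(i+1)`. -/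
theorem factor_bound (c c1 : ℝ) (hc : 0 ≤ c) (hcc : c < c1) :
    ∃ j1 : ℕ, ∀ i : ℕ, j1 ≤ i → ((i : ℝ) / (i + 1)) ^ c1 ≤ 1 - c / (i + 1) := by
  refine ⟨⌈c * c1 / (c1 - c)⌉₊ + 1, ?_⟩
  intro i hi
  have hc1 : 0 < c1 := lt_of_le_of_lt hc hcc
  have hi1 : 1 ≤ i := by omega
  have hiR : (1 : ℝ) ≤ (i : ℝ) := by exact_mod_cast hi1
  have hceil : c * c1 / (c1 - c) ≤ (i : ℝ) := by
    have h1 : c * c1 / (c1 - c) ≤ (⌈c * c1 / (c1 - c)⌉₊ : ℝ) := Nat.le_ceil _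
    have h2 : ((⌈c * c1 / (c1 - c)⌉₊ : ℕ) : ℝ) ≤ (i : ℝ) := by
      exact_mod_cast (by omega : ⌈c * c1 / (c1 - c)⌉₊ ≤ i)
    linarith
  have hd : 0 < c1 - c := by linarith
  have hmul : c * c1 ≤ (i : ℝ) * (c1 - c) := by
    rwa [div_le_iff₀ hd] at hceil
  have hpos : 0 < (i : ℝ) / (i + 1) := by positivity
  have hlog : Real.log ((i : ℝ) / (i + 1)) ≤ -(1 / ((i : ℝ) + 1)) := by
    have h := Real.log_le_sub_one_of_pos hpos
    have e : (i : ℝ) / (i + 1) - 1 = -(1 / ((i : ℝ) + 1)) := by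
      field_simp
      ring
    linarith
  rw [Real.rpow_def_of_pos hpos]
  have h1 : Real.log ((i : ℝ) / (i + 1)) * c1 ≤ -(c1 / ((i : ℝ) + 1)) := by
    have := mul_le_mul_of_nonneg_right hlog hc1.le
    have e : -(1 / ((i : ℝ) + 1)) * c1 = -(c1 / ((i : ℝ) + 1)) := by ring
    linarith
  have h2 : Real.exp (Real.log ((i : ℝ) / (i + 1)) * c1) ≤ Real.exp (-(c1 / ((i : ℝ) + 1))) :=
    Real.exp_le_exp.mpr h1
  have h3 : Real.exp (-(c1 / ((i : ℝ) + 1))) ≤ 1 / (1 + c1 / ((i : ℝ) + 1)) := by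
    rw [Real.exp_neg, one_div]
    apply inv_anti₀ (by positivity)
    have := Real.add_one_le_exp (c1 / ((i : ℝ) + 1))
    linarith
  have h4 : 1 / (1 + c1 / ((i : ℝ) + 1)) ≤ 1 - c / ((i : ℝ) + 1) := by
    have hp : 0 < (i : ℝ) + 1 := by positivity
    have e1 : 1 / (1 + c1 / ((i : ℝ) + 1)) = ((i : ℝ) + 1) / ((i : ℝ) + 1 + c1) := by
      field_simp
    have e2 : 1 - c / ((i : ℝ) + 1) = ((i : ℝ) + 1 - c) / ((i : ℝ) + 1) := by
      field_simp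
    rw [e1, e2, div_le_div_iff₀ (by positivity) hp]
    nlinarith
  linarith

/-- comparison of the products with powers. -/
theorem piS_ratio (c c1 sg : ℝ) (hc : 0 ≤ c) (hcc : c < c1) (hsg0 : 0 ≤ sg) (hsg : sg < 1)
    (j0 : ℕ) :
    ∃ B : ℝ, 0 < B ∧ ∀ (s : ℕ → ℝ), (∀ j, 0 ≤ s j) → (∀ j, s j ≤ sg) →
      (∀ j, j0 ≤ j → s j ≤ c / j) → ∀ k d : ℕ, 1 ≤ k → k ≤ d →
      piS s k ≤ piS s d * (d : ℝ) ^ c1 * B * (1 / (k : ℝ) ^ c1) := by
  obtain ⟨j1', hj1'⟩ := factor_bound c c1 hc hcc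
  set j1 := max j1' j0 with hj1def
  set b : ℝ := (1 - sg)⁻¹ with hb
  have hc1 : 0 < c1 := lt_of_le_of_lt hc hcc
  have h1sg : 0 < 1 - sg := by linarith
  have hb1 : 1 ≤ b := by
    rw [hb]
    apply (one_le_inv₀ h1sg).mpr
    linarith
  have hbpos : 0 < b := by linarith
  refine ⟨b ^ j1, by positivity, ?_⟩
  intro s hs0 hs hsc k d hk hkd
  have hmono : ∀ i : ℕ, 1 ≤ i →
      piS s i * (i : ℝ) ^ c1 * b ^ (min i j1)
        ≤ piS s (i + 1) * ((i + 1 : ℕ) : ℝ) ^ c1 * b ^ (min (i + 1) j1) := by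
    intro i hi
    have hpi := piS_pos s sg hsg hs i
    have hiR : (0 : ℝ) < (i : ℝ) := by exact_mod_cast hi
    have hipow : 0 < (i : ℝ) ^ c1 := Real.rpow_pos_of_pos hiR _
    have hi1pow : 0 < ((i + 1 : ℕ) : ℝ) ^ c1 := Real.rpow_pos_of_pos (by positivity) _
    rw [piS_succ s i hi]
    by_cases hcase : i + 1 ≤ j1
    · rw [min_eq_left hcase, min_eq_left (by omega : i ≤ j1), pow_succ]
      have h1 : (i : ℝ) ^ c1 ≤ ((i + 1 : ℕ) : ℝ) ^ c1 := by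
        apply Real.rpow_le_rpow hiR.le _ hc1.le
        push_cast
        linarith
      have h2 : 1 ≤ (1 - s (i + 1)) * b := by
        have h3 : (1 - sg) * b = 1 := by
          rw [hb]
          exact mul_inv_cancel₀ h1sg.ne'
        have h4 := hs (i + 1)
        nlinarith
      have hbi : 0 < b ^ i := by positivity
      calc piS s i * (i : ℝ) ^ c1 * b ^ i
          ≤ piS s i * ((i + 1 : ℕ) : ℝ) ^ c1 * b ^ i := by gcongr
        _ = (piS s i * ((i + 1 : ℕ) : ℝ) ^ c1 * b ^ i) * 1 := by ring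
        _ ≤ (piS s i * ((i + 1 : ℕ) : ℝ) ^ c1 * b ^ i) * ((1 - s (i + 1)) * b) := by
            apply mul_le_mul_of_nonneg_left h2
            positivity
        _ = piS s i * (1 - s (i + 1)) * ((i + 1 : ℕ) : ℝ) ^ c1 * (b ^ i * b) := by ring
    · have hij : j1 ≤ i := by omega
      rw [min_eq_right hij, min_eq_right (by omega : j1 ≤ i + 1)]
      have h1 := hj1' i (le_trans (le_max_left _ _) hij)
      have h2 := hsc (i + 1) (by have := le_max_right j1' j0; omega)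
      push_cast at h2
      have h3 : ((i : ℝ) / (i + 1)) ^ c1 = (i : ℝ) ^ c1 / ((i + 1 : ℕ) : ℝ) ^ c1 := by
        rw [Real.div_rpow hiR.le (by positivity)]
        push_cast
        rfl
      have h4 : (i : ℝ) ^ c1 ≤ (1 - s (i + 1)) * ((i + 1 : ℕ) : ℝ) ^ c1 := by
        have h5 : (i : ℝ) ^ c1 / ((i + 1 : ℕ) : ℝ) ^ c1 ≤ 1 - s (i + 1) := by
          rw [← h3]
          linarith
        rwa [div_le_iff₀ hi1pow] at h5
      have hbj : 0 < b ^ j1 := by positivity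
      calc piS s i * (i : ℝ) ^ c1 * b ^ j1
          ≤ piS s i * ((1 - s (i + 1)) * ((i + 1 : ℕ) : ℝ) ^ c1) * b ^ j1 := by gcongr
        _ = piS s i * (1 - s (i + 1)) * ((i + 1 : ℕ) : ℝ) ^ c1 * b ^ j1 := by ring
  have hkd' : piS s k * (k : ℝ) ^ c1 * b ^ (min k j1) ≤ piS s d * (d : ℝ) ^ c1 * b ^ (min d j1) := by
    induction d, hkd using Nat.le_induction with
    | base => exact le_refl _
    | succ n hn ih => exact le_trans ih (hmono n (by omega))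
  have hkR : (0 : ℝ) < (k : ℝ) := by exact_mod_cast hk
  have hkpow : 0 < (k : ℝ) ^ c1 := Real.rpow_pos_of_pos hkR _
  have hdR : (0 : ℝ) < (d : ℝ) := by exact_mod_cast (by omega : 0 < d)
  have hdpow : 0 < (d : ℝ) ^ c1 := Real.rpow_pos_of_pos hdR _
  have hpk := piS_pos s sg hsg hs k
  have hpd := piS_pos s sg hsg hs d
  have hb_lo : 1 ≤ b ^ (min k j1) := one_le_pow₀ hb1
  have hb_hi : b ^ (min d j1) ≤ b ^ j1 := pow_le_pow_right₀ hb1 (min_le_right _ _)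
  have h6 : piS s k * (k : ℝ) ^ c1 ≤ piS s d * (d : ℝ) ^ c1 * b ^ j1 := by
    calc piS s k * (k : ℝ) ^ c1 = piS s k * (k : ℝ) ^ c1 * 1 := by ring
      _ ≤ piS s k * (k : ℝ) ^ c1 * b ^ (min k j1) := by
          apply mul_le_mul_of_nonneg_left hb_lo
          positivity
      _ ≤ piS s d * (d : ℝ) ^ c1 * b ^ (min d j1) := hkd'
      _ ≤ piS s d * (d : ℝ) ^ c1 * b ^ j1 := by
          apply mul_le_mul_of_nonneg_left hb_hi
          positivity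
  rw [mul_one_div, le_div_iff₀ hkpow]
  exact h6


/-- an elementary numerical bound. -/
theorem big_bound (d : ℕ) (hd : 1 ≤ d) (x : ℝ) (hx : 7 * (d : ℝ) ≤ x) :
    16 * (d : ℝ) * 4 ^ d ≤ Real.exp x := by
  have h1 : (2 : ℝ) ≤ Real.exp 1 := by
    have := Real.add_one_le_exp (1 : ℝ)
    linarith
  have h2 : (2 : ℝ) ^ (7 * d) ≤ Real.exp (7 * (d : ℝ)) := by
    calc (2 : ℝ) ^ (7 * d) ≤ (Real.exp 1) ^ (7 * d) := pow_le_pow_left₀ (by norm_num) h1 _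
      _ = Real.exp (((7 * d : ℕ) : ℝ) * 1) := (Real.exp_nat_mul _ _).symm
      _ = Real.exp (7 * (d : ℝ)) := by push_cast; ring_nf
  have h3 : Real.exp (7 * (d : ℝ)) ≤ Real.exp x := Real.exp_le_exp.mpr hx
  have h4 : (d : ℝ) ≤ 2 ^ d := by exact_mod_cast (Nat.lt_two_pow_self (n := d)).le
  have h5 : (16 : ℝ) ≤ 16 ^ d := by
    calc (16 : ℝ) = 16 ^ 1 := by norm_num
      _ ≤ 16 ^ d := pow_le_pow_right₀ (by norm_num) hd
  have h6 : (2 : ℝ) ^ (7 * d) = 16 ^ d * 2 ^ d * 4 ^ d := by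
    rw [pow_mul, ← mul_pow, ← mul_pow]
    norm_num
  have h7 : 16 * (d : ℝ) * 4 ^ d ≤ 16 ^ d * 2 ^ d * 4 ^ d := by gcongr
  linarith

/-- the weights. -/
noncomputable def wS (s : ℕ → ℝ) (lam : ℝ) (d k : ℕ) : ℝ := piS s k * lam ^ (d - k)

theorem wS_cond (d : ℕ) (hd : 1 ≤ d) (s : ℕ → ℝ) (sg : ℝ) (hsg : sg < 1)
    (hs : ∀ j, s j ≤ sg) (dl : ℝ) (hdl0 : 0 ≤ dl) (hdl1 : dl ≤ 1)
    (hdlT : dl * ∑ k ∈ Ico 1 (d + 1), piS s k ≤ piS s d) :
    (1 - (1 - dl)) * ∑ k ∈ Ico 1 d, wS s (1 - dl) d k ≤ (1 - dl) * wS s (1 - dl) d d := by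
  have hpos := piS_pos s sg hsg hs
  have hlam0 : 0 ≤ 1 - dl := by linarith
  have hlam1 : 1 - dl ≤ 1 := by linarith
  have h1 : ∑ k ∈ Ico 1 d, wS s (1 - dl) d k ≤ ∑ k ∈ Ico 1 d, (1 - dl) * piS s k := by
    apply Finset.sum_le_sum
    intro k hk
    rw [Finset.mem_Ico] at hk
    have h2 : (1 - dl) ^ (d - k) ≤ 1 - dl := pow_le_of_le_one hlam0 hlam1 (by omega)
    show piS s k * (1 - dl) ^ (d - k) ≤ (1 - dl) * piS s k
    rw [mul_comm]
    exact mul_le_mul_of_nonneg_right h2 (hpos k).le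
  rw [← Finset.mul_sum] at h1
  have h2 : ∑ k ∈ Ico 1 d, piS s k ≤ ∑ k ∈ Ico 1 (d + 1), piS s k := by
    rw [Finset.sum_Ico_succ_top hd]
    have := (hpos d).le
    linarith
  have hwd : wS s (1 - dl) d d = piS s d := by
    show piS s d * (1 - dl) ^ (d - d) = piS s d
    simp
  rw [hwd]
  have h4 : ∑ k ∈ Ico 1 d, wS s (1 - dl) d k ≤ (1 - dl) * ∑ k ∈ Ico 1 (d + 1), piS s k :=
    le_trans h1 (mul_le_mul_of_nonneg_left h2 hlam0)
  have h5 := mul_le_mul_of_nonneg_left h4 hdl0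
  have h6 := mul_le_mul_of_nonneg_left hdlT hlam0
  have e : (1 - (1 - dl)) = dl := by ring
  rw [e]
  calc dl * ∑ k ∈ Ico 1 d, wS s (1 - dl) d k
      ≤ dl * ((1 - dl) * ∑ k ∈ Ico 1 (d + 1), piS s k) := h5
    _ = (1 - dl) * (dl * ∑ k ∈ Ico 1 (d + 1), piS s k) := by ring
    _ ≤ (1 - dl) * piS s d := h6

/-- geometric decay of the potential, hence of `S u 1`. -/
theorem decay_core (d : ℕ) (hd : 2 ≤ d) (s : ℕ → ℝ) (S : ℕ → ℕ → ℝ) (sg : ℝ) (hsg : sg < 1)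
    (hs0 : ∀ j, 0 ≤ s j) (hs : ∀ j, s j ≤ sg)
    (hS0 : ∀ t j, 0 ≤ S t j) (hSd : ∀ t, S t d = 0) (hSinit : ∀ j, S 0 j ≤ 4 ^ d)
    (hrec : ∀ t j, 1 ≤ j → j ≤ d → S (t + 1) (j - 1) ≤ (1 - s j) * S t j + s j * S t 1)
    (dl : ℝ) (hdl0 : 0 ≤ dl) (hdl1 : dl * (2 * d) ≤ 1)
    (hdlT : dl * ∑ k ∈ Ico 1 (d + 1), piS s k ≤ piS s d) (u : ℕ) :
    S u 1 ≤ 2 * (Real.exp (-(dl * u)) * (d * 4 ^ d)) := by
  have hd1 : 1 ≤ d := by omega
  have hdR : (2 : ℝ) ≤ (d : ℝ) := by exact_mod_cast hd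
  have hpos := piS_pos s sg hsg hs
  have hdl_half : dl ≤ 1 / 4 := by nlinarith
  have hlam0 : 0 ≤ 1 - dl := by linarith
  have hlam1 : 1 - dl ≤ 1 := by linarith
  have hw0 : ∀ k, 0 ≤ wS s (1 - dl) d k :=
    fun k => mul_nonneg (hpos k).le (pow_nonneg hlam0 _)
  have hw1 : ∀ k, wS s (1 - dl) d k ≤ 1 := by
    intro k
    have h1 := piS_le_one s sg hsg hs0 hs k
    have h2 : (1 - dl) ^ (d - k) ≤ 1 := pow_le_one₀ hlam0 hlam1
    exact mul_le_one₀ h1 (pow_nonneg hlam0 _) h2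
  have hw : ∀ k, 1 ≤ k → k < d →
      wS s (1 - dl) d k * (1 - s (k + 1)) = (1 - dl) * wS s (1 - dl) d (k + 1) := by
    intro k hk hkd
    show piS s k * (1 - dl) ^ (d - k) * (1 - s (k + 1))
      = (1 - dl) * (piS s (k + 1) * (1 - dl) ^ (d - (k + 1)))
    rw [piS_succ s k hk, (by omega : d - k = (d - (k + 1)) + 1), pow_succ]
    ring
  have hcond := wS_cond d hd1 s sg hsg hs dl hdl0 (by linarith) hdlT
  have hstep : ∀ v, ∑ k ∈ Ico 1 d, wS s (1 - dl) d k * S (v + 1) k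
      ≤ (1 - dl) * ∑ k ∈ Ico 1 d, wS s (1 - dl) d k * S v k := by
    intro v
    exact potential_step d hd1 s (wS s (1 - dl) d) (1 - dl) (S v) (S (v + 1)) hw0 hw hcond
      (hS0 v 1) (hSd v) (hrec v)
  have hiter : ∀ v, ∑ k ∈ Ico 1 d, wS s (1 - dl) d k * S v k
      ≤ (1 - dl) ^ v * ∑ k ∈ Ico 1 d, wS s (1 - dl) d k * S 0 k := by
    intro v
    induction v with
    | zero => simp
    | succ n ih =>
      calc ∑ k ∈ Ico 1 d, wS s (1 - dl) d k * S (n + 1) k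
          ≤ (1 - dl) * ∑ k ∈ Ico 1 d, wS s (1 - dl) d k * S n k := hstep n
        _ ≤ (1 - dl) * ((1 - dl) ^ n * ∑ k ∈ Ico 1 d, wS s (1 - dl) d k * S 0 k) :=
            mul_le_mul_of_nonneg_left ih hlam0
        _ = (1 - dl) ^ (n + 1) * ∑ k ∈ Ico 1 d, wS s (1 - dl) d k * S 0 k := by ring
  have hPsi0 : ∑ k ∈ Ico 1 d, wS s (1 - dl) d k * S 0 k ≤ d * 4 ^ d := by
    have h1 : ∑ k ∈ Ico 1 d, wS s (1 - dl) d k * S 0 k ≤ ∑ _k ∈ Ico 1 d, (4 : ℝ) ^ d := by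
      apply Finset.sum_le_sum
      intro k _
      calc wS s (1 - dl) d k * S 0 k ≤ 1 * S 0 k :=
            mul_le_mul_of_nonneg_right (hw1 k) (hS0 0 k)
        _ = S 0 k := one_mul _
        _ ≤ 4 ^ d := hSinit k
    have h2 : ∑ _k ∈ Ico 1 d, (4 : ℝ) ^ d = ((d - 1 : ℕ) : ℝ) * 4 ^ d := by
      simp
    have h3 : ((d - 1 : ℕ) : ℝ) ≤ (d : ℝ) := by exact_mod_cast Nat.sub_le d 1
    have h4 : (0 : ℝ) ≤ 4 ^ d := by positivity
    rw [h2] at h1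
    exact le_trans h1 (mul_le_mul_of_nonneg_right h3 h4)
  have hw1lo : 1 / 2 ≤ wS s (1 - dl) d 1 := by
    show 1 / 2 ≤ piS s 1 * (1 - dl) ^ (d - 1)
    have h1 : piS s 1 = 1 := rfl
    rw [h1, one_mul]
    have h2 := one_add_mul_le_pow (a := -dl) (by linarith) (d - 1)
    have h3 : (1 : ℝ) + -dl = 1 - dl := by ring
    rw [h3] at h2
    have h4 : ((d - 1 : ℕ) : ℝ) ≤ (d : ℝ) := by exact_mod_cast Nat.sub_le d 1
    have h5 : ((d - 1 : ℕ) : ℝ) * dl ≤ (d : ℝ) * dl := mul_le_mul_of_nonneg_right h4 hdl0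
    linarith
  have hS1 : wS s (1 - dl) d 1 * S u 1 ≤ ∑ k ∈ Ico 1 d, wS s (1 - dl) d k * S u k := by
    have h := Finset.single_le_sum (f := fun k => wS s (1 - dl) d k * S u k) (s := Ico 1 d)
      (fun k _ => mul_nonneg (hw0 k) (hS0 u k)) (Finset.mem_Ico.mpr ⟨le_refl 1, by omega⟩)
    exact h
  have hlamexp : (1 - dl) ^ u ≤ Real.exp (-(dl * u)) := by
    have h1 : 1 - dl ≤ Real.exp (-dl) := by
      have := Real.add_one_le_exp (-dl)
      linarith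
    calc (1 - dl) ^ u ≤ (Real.exp (-dl)) ^ u := pow_le_pow_left₀ hlam0 h1 _
      _ = Real.exp (u * (-dl)) := (Real.exp_nat_mul _ _).symm
      _ = Real.exp (-(dl * u)) := by ring_nf
  have hP0 : 0 ≤ ∑ k ∈ Ico 1 d, wS s (1 - dl) d k * S 0 k :=
    Finset.sum_nonneg (fun k _ => mul_nonneg (hw0 k) (hS0 0 k))
  have h2 : (1 - dl) ^ u * ∑ k ∈ Ico 1 d, wS s (1 - dl) d k * S 0 k
      ≤ Real.exp (-(dl * u)) * (d * 4 ^ d) :=
    mul_le_mul hlamexp hPsi0 hP0 (Real.exp_pos _).le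
  have h3 : 1 / 2 * S u 1 ≤ wS s (1 - dl) d 1 * S u 1 :=
    mul_le_mul_of_nonneg_right hw1lo (hS0 u 1)
  have h4 := hiter u
  linarith

/-- The scalar consequence of the one-step inequalities: if `s j ≤ c / j` for large `j` and
`s j ≤ sg < 1` always, then `S t 0 ≤ 1/8` for all `t ≥ C d^(1+c1)`, for any `c1 > max c 1`. -/
theorem scalar_mixing (c c1 sg : ℝ) (hc : 0 ≤ c) (hcc : c < c1) (h1c : 1 < c1) (hsg0 : 0 ≤ sg)
    (hsg : sg < 1) (j0 : ℕ) :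
    ∃ C : ℝ, 0 < C ∧ ∀ (d : ℕ) (s : ℕ → ℝ) (S : ℕ → ℕ → ℝ), 1 ≤ d →
      (∀ j, 0 ≤ s j) → (∀ j, s j ≤ sg) → (∀ j, j0 ≤ j → s j ≤ c / j) →
      (∀ t j, 0 ≤ S t j) → (∀ t, S t d = 0) → (∀ j, S 0 j ≤ 4 ^ d) →
      (∀ t j, 1 ≤ j → j ≤ d → S (t + 1) (j - 1) ≤ (1 - s j) * S t j + s j * S t 1) →
      ∀ t : ℕ, C * (d : ℝ) ^ (1 + c1) ≤ t → S t 0 ≤ 1 / 8 := by
  obtain ⟨B, hB, hratio⟩ := piS_ratio c c1 sg hc hcc hsg0 hsg j0
  have hsum : Summable (fun n : ℕ => 1 / (n : ℝ) ^ c1) := Real.summable_one_div_nat_rpow.mpr h1c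
  have hZ1 : 1 ≤ ∑' n : ℕ, 1 / (n : ℝ) ^ c1 := by
    have h := hsum.sum_le_tsum {1} (fun i _ => by positivity)
    rw [Finset.sum_singleton] at h
    have e : (1 : ℝ) / ((1 : ℕ) : ℝ) ^ c1 = 1 := by simp
    rw [e] at h
    exact h
  obtain ⟨K, hK⟩ : ∃ K : ℝ, K = B * ∑' n : ℕ, 1 / (n : ℝ) ^ c1 := ⟨_, rfl⟩
  have hKpos : 0 < K := by rw [hK]; positivity
  refine ⟨14 * K + 1, by positivity, ?_⟩
  intro d s S hd hs0 hs hsc hS0 hSd hSinit hrec t ht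
  have hdR : (1 : ℝ) ≤ (d : ℝ) := by exact_mod_cast hd
  have hdpos : (0 : ℝ) < (d : ℝ) := by linarith
  have hdc : 0 < (d : ℝ) ^ c1 := Real.rpow_pos_of_pos hdpos _
  have hd1c : (d : ℝ) ^ (1 + c1) = d * (d : ℝ) ^ c1 := by
    rw [Real.rpow_add hdpos, Real.rpow_one]
  have hge1 : 1 ≤ (d : ℝ) ^ (1 + c1) := Real.one_le_rpow hdR (by linarith)
  have hnn : 0 ≤ 14 * K * (d : ℝ) ^ (1 + c1) := by positivity
  have ht1 : (1 : ℝ) ≤ (t : ℝ) := by
    have e : (14 * K + 1) * (d : ℝ) ^ (1 + c1)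
      = 14 * K * (d : ℝ) ^ (1 + c1) + (d : ℝ) ^ (1 + c1) := by ring
    linarith
  have ht1' : 1 ≤ t := by exact_mod_cast ht1
  obtain ⟨t', rfl⟩ : ∃ t', t = t' + 1 := ⟨t - 1, by omega⟩
  have ht' : 14 * K * (d : ℝ) ^ (1 + c1) ≤ (t' : ℝ) := by
    push_cast at ht
    have e : (14 * K + 1) * (d : ℝ) ^ (1 + c1)
      = 14 * K * (d : ℝ) ^ (1 + c1) + (d : ℝ) ^ (1 + c1) := by ring
    linarith
  have hfirst : S (t' + 1) 0 ≤ S t' 1 := by
    have h := hrec t' 1 (le_refl _) hd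
    simp only [Nat.sub_self] at h
    linarith
  refine le_trans hfirst ?_
  rcases Nat.lt_or_ge d 2 with hd2 | hd2
  · have : d = 1 := by omega
    subst this
    rw [hSd t']
    norm_num
  have hpos := piS_pos s sg hsg hs
  obtain ⟨Tot, hTot⟩ : ∃ T : ℝ, T = ∑ k ∈ Ico 1 (d + 1), piS s k := ⟨_, rfl⟩
  have hTot_lo : (d : ℝ) * piS s d ≤ Tot := by
    have h := Finset.card_nsmul_le_sum (Ico 1 (d + 1)) (fun k => piS s k) (piS s d) (by
      intro k hk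
      rw [Finset.mem_Ico] at hk
      exact piS_anti s sg hsg hs0 hs k d hk.1 (by omega))
    rw [hTot]
    simpa using h
  have hTot_hi : Tot ≤ piS s d * (d : ℝ) ^ c1 * K := by
    have h1 : Tot ≤ ∑ k ∈ Ico 1 (d + 1), piS s d * (d : ℝ) ^ c1 * B * (1 / (k : ℝ) ^ c1) := by
      rw [hTot]
      apply Finset.sum_le_sum
      intro k hk
      rw [Finset.mem_Ico] at hk
      exact hratio s hs0 hs hsc k d hk.1 (by omega)
    rw [← Finset.mul_sum] at h1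
    have h2 : ∑ k ∈ Ico 1 (d + 1), 1 / (k : ℝ) ^ c1 ≤ ∑' n : ℕ, 1 / (n : ℝ) ^ c1 :=
      hsum.sum_le_tsum _ (fun i _ => by positivity)
    have h3 : 0 ≤ piS s d * (d : ℝ) ^ c1 * B := by
      have := hpos d
      positivity
    calc Tot ≤ piS s d * (d : ℝ) ^ c1 * B * ∑ k ∈ Ico 1 (d + 1), 1 / (k : ℝ) ^ c1 := h1
      _ ≤ piS s d * (d : ℝ) ^ c1 * B * ∑' n : ℕ, 1 / (n : ℝ) ^ c1 :=
          mul_le_mul_of_nonneg_left h2 h3
      _ = piS s d * (d : ℝ) ^ c1 * K := by rw [hK]; ring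
  have hTotpos : 0 < Tot := lt_of_lt_of_le (mul_pos hdpos (hpos d)) hTot_lo
  obtain ⟨dl, hdl⟩ : ∃ x : ℝ, x = piS s d / (2 * Tot) := ⟨_, rfl⟩
  have hdlpos : 0 < dl := by rw [hdl]; exact div_pos (hpos d) (by positivity)
  have hdl_hi : dl * (2 * d) ≤ 1 := by
    rw [hdl, div_mul_eq_mul_div, div_le_one (by positivity)]
    linarith
  have hdl_lo : 1 ≤ dl * (2 * K * (d : ℝ) ^ c1) := by
    rw [hdl, div_mul_eq_mul_div, le_div_iff₀ (by positivity)]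
    linarith
  have hdlTot : dl * Tot ≤ piS s d := by
    have e : dl * Tot = piS s d / 2 := by
      rw [hdl]
      field_simp
    have := (hpos d).le
    linarith
  rw [hTot] at hdlTot
  have hcore := decay_core d hd2 s S sg hsg hs0 hs hS0 hSd hSinit hrec dl hdlpos.le hdl_hi
    hdlTot t'
  have hdt : 7 * (d : ℝ) ≤ dl * t' := by
    have h1 : dl * (14 * K * (d : ℝ) ^ (1 + c1)) ≤ dl * t' :=
      mul_le_mul_of_nonneg_left ht' hdlpos.le
    have h2 : dl * (14 * K * (d : ℝ) ^ (1 + c1)) = 7 * d * (dl * (2 * K * (d : ℝ) ^ c1)) := by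
      rw [hd1c]
      ring
    have h3 : 7 * (d : ℝ) * 1 ≤ 7 * d * (dl * (2 * K * (d : ℝ) ^ c1)) :=
      mul_le_mul_of_nonneg_left hdl_lo (by positivity)
    linarith
  have hbig := big_bound d hd (dl * t') hdt
  have hE : 0 < Real.exp (dl * t') := Real.exp_pos _
  rw [Real.exp_neg] at hcore
  have h3 : (Real.exp (dl * t'))⁻¹ * (d * 4 ^ d) ≤ 1 / 16 := by
    rw [inv_mul_le_iff₀ hE]
    linarith
  linarith

end Vale.Agent.P162
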