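import Mathlib

/-!
Scalar end-game of the weighted potential argument for the Thorp shuffle.
-/

namespace Vale.Agent.P162.ScalarW

open Finset

/-- The weights `W k = ∏_{2 ≤ i ≤ k} (1 - sb i)`. -/
noncomputable def Wt (sb : ℕ → ℝ) (k : ℕ) : ℝ := ∏ i ∈ Finset.Ico 2 (k + 1), (1 - sb i)

theorem Wt_one (sb : ℕ → ℝ) : Wt sb 1 = 1 := by simp [Wt]

theorem Wt_succ (sb : ℕ → ℝ) (k : ℕ) (hk : 1 ≤ k) :
    Wt sb (k + 1) = Wt sb k * (1 - sb (k + 1)) := by
  unfold Wt
  rw [Finset.prod_Ico_succ_top (by omega)]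

theorem Wt_nonneg (sb : ℕ → ℝ) (h1 : ∀ j, sb j ≤ 1) (k : ℕ) : 0 ≤ Wt sb k := by
  unfold Wt
  exact Finset.prod_nonneg fun i _ => by linarith [h1 i]

theorem Wt_le_one (sb : ℕ → ℝ) (h0 : ∀ j, 0 ≤ sb j) (h1 : ∀ j, sb j ≤ 1) (k : ℕ) :
    Wt sb k ≤ 1 := by
  unfold Wt
  exact Finset.prod_le_one (fun i _ => by linarith [h1 i]) (fun i _ => by linarith [h0 i])

/-- One step of the potential. -/
theorem potential_step (e : ℕ) (lam : ℝ) (B sb x y : ℕ → ℝ)
    (hB0 : B 0 = 1) (hBnn : ∀ i, 0 ≤ B i)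
    (hBrec : ∀ i, B i * (1 - sb (i + 2)) = lam * B (i + 1))
    (hx1 : 0 ≤ x 1) (hxd : x (e + 1) = 0)
    (hrec : ∀ i, i < e → y (i + 1) ≤ (1 - sb (i + 2)) * x (i + 2) + sb (i + 2) * x 1)
    (hcond : (1 - lam) * ∑ i ∈ range e, B i ≤ lam * B e) :
    ∑ i ∈ range e, B i * y (i + 1) ≤ lam * ∑ i ∈ range e, B i * x (i + 1) := by
  have h1 : ∑ i ∈ range e, B i * y (i + 1) ≤
      ∑ i ∈ range e, (lam * (B (i + 1) * x (i + 1 + 1)) + (B i - lam * B (i + 1)) * x 1) := by
    apply Finset.sum_le_sum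
    intro i hi
    have h := mul_le_mul_of_nonneg_left (hrec i (Finset.mem_range.mp hi)) (hBnn i)
    have h2 := hBrec i
    calc B i * y (i + 1) ≤ B i * ((1 - sb (i + 2)) * x (i + 2) + sb (i + 2) * x 1) := h
      _ = (B i * (1 - sb (i + 2))) * x (i + 2) + (B i - B i * (1 - sb (i + 2))) * x 1 := by ring
      _ = lam * (B (i + 1) * x (i + 1 + 1)) + (B i - lam * B (i + 1)) * x 1 := by
          rw [h2]; ring
  have h3 : ∑ i ∈ range e, B (i + 1) * x (i + 1 + 1) =
      ∑ i ∈ range e, B i * x (i + 1) - x 1 := by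
    have ha := Finset.sum_range_succ' (fun i => B i * x (i + 1)) e
    have hb := Finset.sum_range_succ (fun i => B i * x (i + 1)) e
    simp only [hB0, hxd, mul_zero, add_zero, one_mul, zero_add] at ha hb
    linarith
  have h4 : ∑ i ∈ range e, B (i + 1) = ∑ i ∈ range e, B i + B e - 1 := by
    have ha := Finset.sum_range_succ' (fun i => B i) e
    have hb := Finset.sum_range_succ (fun i => B i) e
    simp only [hB0] at ha hb
    linarith
  have h5 : ∑ i ∈ range e, (lam * (B (i + 1) * x (i + 1 + 1)) + (B i - lam * B (i + 1)) * x 1) =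
      lam * ∑ i ∈ range e, B (i + 1) * x (i + 1 + 1) +
        (∑ i ∈ range e, B i - lam * ∑ i ∈ range e, B (i + 1)) * x 1 := by
    rw [Finset.sum_add_distrib, ← Finset.mul_sum, ← Finset.sum_mul, Finset.sum_sub_distrib,
      ← Finset.mul_sum]
  rw [h5, h3, h4] at h1
  nlinarith [mul_nonneg hx1 (sub_nonneg.mpr hcond)]

/-- (A) Geometric decay of the divergence, with explicit weights `W k / lam ^ (k - 1)`.
`S t j` is the divergence of the columns `j, ..., d - 1` after `t` shuffles, `d = e + 1`. -/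
theorem potential_decay (e : ℕ) (he : 1 ≤ e) (sb : ℕ → ℝ) (hsb0 : ∀ j, 0 ≤ sb j)
    (hsb1 : ∀ j, sb j ≤ 1) (S : ℕ → ℕ → ℝ) (hS0 : ∀ t j, 0 ≤ S t j)
    (hSd : ∀ t, S t (e + 1) = 0)
    (hrec : ∀ t j, 1 ≤ j → j ≤ e + 1 → S (t + 1) (j - 1) ≤ (1 - sb j) * S t j + sb j * S t 1)
    (D0 : ℝ) (hD0 : ∀ j, S 0 j ≤ D0) (δ : ℝ) (hδ0 : 0 < δ) (hδ1 : δ < 1)
    (hδ : δ * ∑ i ∈ range e, Wt sb (i + 1) ≤ Wt sb (e + 1)) (u : ℕ) :
    S (e + u + 1) 0 ≤ (1 - δ) ^ u * (e * D0) := by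
  set lam : ℝ := 1 - δ with hlam
  have hl0 : 0 < lam := by rw [hlam]; linarith
  have hl1 : lam ≤ 1 := by rw [hlam]; linarith
  have hD0nn : 0 ≤ D0 := le_trans (hS0 0 0) (hD0 0)
  set B : ℕ → ℝ := fun i => Wt sb (i + 1) / lam ^ i with hB
  have hB0 : B 0 = 1 := by simp [hB, Wt_one]
  have hBnn : ∀ i, 0 ≤ B i := fun i =>
    div_nonneg (Wt_nonneg sb hsb1 _) (pow_pos hl0 i).le
  have hBrec : ∀ i, B i * (1 - sb (i + 2)) = lam * B (i + 1) := by
    intro i
    simp only [hB]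
    rw [Wt_succ sb (i + 1) (by omega), pow_succ]
    field_simp
  have hcond : (1 - lam) * ∑ i ∈ range e, B i ≤ lam * B e := by
    obtain ⟨e', rfl⟩ : ∃ e', e = e' + 1 := ⟨e - 1, by omega⟩
    have h1 : ∑ i ∈ range (e' + 1), B i ≤
        ∑ i ∈ range (e' + 1), Wt sb (i + 1) / lam ^ e' := by
      apply Finset.sum_le_sum
      intro i hi
      have hi' : i ≤ e' := by have := Finset.mem_range.mp hi; omega
      simp only [hB]
      apply div_le_div_of_nonneg_left (Wt_nonneg sb hsb1 _) (pow_pos hl0 _)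
      exact pow_le_pow_of_le_one hl0.le hl1 hi'
    rw [← Finset.sum_div] at h1
    have h2 : lam * B (e' + 1) = Wt sb (e' + 1 + 1) / lam ^ e' := by
      simp only [hB]
      rw [pow_succ]
      field_simp
    rw [h2]
    have h3 : (1 - lam) = δ := by rw [hlam]; ring
    rw [h3]
    calc δ * ∑ i ∈ range (e' + 1), B i
        ≤ δ * ((∑ i ∈ range (e' + 1), Wt sb (i + 1)) / lam ^ e') :=
          mul_le_mul_of_nonneg_left h1 hδ0.le
      _ = (δ * ∑ i ∈ range (e' + 1), Wt sb (i + 1)) / lam ^ e' := by ring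
      _ ≤ Wt sb (e' + 1 + 1) / lam ^ e' :=
          div_le_div_of_nonneg_right hδ (pow_pos hl0 _).le
  have hstep : ∀ t, ∑ i ∈ range e, B i * S (t + 1) (i + 1) ≤
      lam * ∑ i ∈ range e, B i * S t (i + 1) := by
    intro t
    apply potential_step e lam B sb (S t) (S (t + 1)) hB0 hBnn hBrec (hS0 t 1) (hSd t) _ hcond
    intro i hi
    have := hrec t (i + 2) (by omega) (by omega)
    simpa using this
  have hiter : ∀ t, ∑ i ∈ range e, B i * S t (i + 1) ≤
      lam ^ t * ∑ i ∈ range e, B i * S 0 (i + 1) := by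
    intro t
    induction t with
    | zero => simp
    | succ t ih =>
      calc ∑ i ∈ range e, B i * S (t + 1) (i + 1) ≤ lam * ∑ i ∈ range e, B i * S t (i + 1) :=
            hstep t
        _ ≤ lam * (lam ^ t * ∑ i ∈ range e, B i * S 0 (i + 1)) :=
            mul_le_mul_of_nonneg_left ih hl0.le
        _ = lam ^ (t + 1) * ∑ i ∈ range e, B i * S 0 (i + 1) := by ring
  have hinit : ∑ i ∈ range e, B i * S 0 (i + 1) ≤ e * D0 / lam ^ e := by
    have h1 : ∑ i ∈ range e, B i * S 0 (i + 1) ≤ ∑ _i ∈ range e, D0 / lam ^ e := by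
      apply Finset.sum_le_sum
      intro i hi
      have hi' : i ≤ e := by have := Finset.mem_range.mp hi; omega
      have hb : B i ≤ 1 / lam ^ e := by
        simp only [hB]
        calc Wt sb (i + 1) / lam ^ i ≤ 1 / lam ^ i :=
              div_le_div_of_nonneg_right (Wt_le_one sb hsb0 hsb1 _) (pow_pos hl0 _).le
          _ ≤ 1 / lam ^ e :=
              div_le_div_of_nonneg_left zero_le_one (pow_pos hl0 _)
                (pow_le_pow_of_le_one hl0.le hl1 hi')
      calc B i * S 0 (i + 1) ≤ (1 / lam ^ e) * D0 :=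
            mul_le_mul hb (hD0 _) (hS0 _ _) (by positivity)
        _ = D0 / lam ^ e := by ring
    rw [Finset.sum_const, Finset.card_range, nsmul_eq_mul] at h1
    calc ∑ i ∈ range e, B i * S 0 (i + 1) ≤ e * (D0 / lam ^ e) := h1
      _ = e * D0 / lam ^ e := by ring
  have hS1 : ∀ t, S t 1 ≤ ∑ i ∈ range e, B i * S t (i + 1) := by
    intro t
    have h := Finset.single_le_sum (f := fun i => B i * S t (i + 1))
      (fun i _ => mul_nonneg (hBnn i) (hS0 t (i + 1))) (Finset.mem_range.mpr (by omega : 0 < e))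
    simpa [hB0] using h
  have hfin : S (e + u + 1) 0 ≤ S (e + u) 1 := by
    have := hrec (e + u) 1 le_rfl (by omega)
    simp only [Nat.sub_self] at this
    linarith
  calc S (e + u + 1) 0 ≤ S (e + u) 1 := hfin
    _ ≤ ∑ i ∈ range e, B i * S (e + u) (i + 1) := hS1 _
    _ ≤ lam ^ (e + u) * ∑ i ∈ range e, B i * S 0 (i + 1) := hiter _
    _ ≤ lam ^ (e + u) * (e * D0 / lam ^ e) :=
        mul_le_mul_of_nonneg_left hinit (pow_pos hl0 _).le
    _ = lam ^ u * (e * D0) := by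
        rw [pow_add]
        field_simp

end Vale.Agent.P162.ScalarW
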